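import Vale.Agent.P021.R2.H636.Mom
import Vale.Agent.P021.Bdl.B3

/-!
# Non-vanishing of one of three consecutive determinants
-/

set_option autoImplicit false

open Polynomial Finset

namespace Vale.Agent.P021.R2.H636

open Vale.Agent.P021.Det

/-- the polynomial `r^2 - 8` -/
noncomputable def Q8 : ℝ[X] := X ^ 2 - C 8

/-- the weighted functional -/
noncomputable def LW (x : ℝ) (b f E : ℕ) : ℝ[X] →ₗ[ℝ] ℝ :=
  (Lam x E).comp (LinearMap.mulRight ℝ (Wp b f))

theorem LW_apply (x : ℝ) (b f E : ℕ) (U : ℝ[X]) : LW x b f E U = Lam x E (U * Wp b f) := rfl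

theorem HM_eq (x : ℝ) (b f E K : ℕ) : HM x b f E K = NV.HM (LW x b f E) K := rfl

/-- The second Pearson coefficient. -/
noncomputable def Tp : ℝ[X] := C 2 * ((X - C 2) * (X - C 3) * Q8)

/-- The first Pearson coefficient. -/
noncomputable def Sp (b f E : ℕ) : ℝ[X] :=
  C 2 * (Q8 * (C 2 * X - C 5 + C (b : ℝ) * (X - C 3) + C (f : ℝ) * (X - C 2)) +
    C (1 - 2 * (E : ℝ)) * X * ((X - C 2) * (X - C 3)))

theorem deriv_Wp (b f : ℕ) : (X - C 2) * (X - C 3) * derivative (Wp b f) =
    Wp b f * (C (b : ℝ) * (X - C 3) + C (f : ℝ) * (X - C 2)) := by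
  rcases b with _ | b <;> rcases f with _ | f
  · simp [Wp]
  · simp only [Wp, pow_zero, one_mul, derivative_X_sub_C_pow, Nat.cast_zero, map_zero, zero_mul,
      zero_add, Nat.add_sub_cancel]
    ring
  · simp only [Wp, pow_zero, mul_one, derivative_X_sub_C_pow, Nat.cast_zero, map_zero, zero_mul,
      add_zero, Nat.add_sub_cancel]
    ring
  · simp only [Wp, derivative_mul, derivative_X_sub_C_pow, Nat.add_sub_cancel]
    ring

theorem pearson (x : ℝ) (b f E : ℕ) (R : ℝ[X]) :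
    LW x b f E (Sp b f E * R + Tp * derivative R) = 0 := by
  have h1 := Lam_ftc x E ((X - C 2) * (X - C 3) * R * Wp b f)
  have h2 : ((X - C 2) * (X - C 3) * R * Wp b f).eval 2 = 0 := by simp
  rw [h2, mul_zero] at h1
  have h3 := deriv_Wp b f
  have h4 : (Sp b f E * R + Tp * derivative R) * Wp b f =
      (2 : ℝ) • (derivative ((X - C 2) * (X - C 3) * R * Wp b f) * (X ^ 2 - C 8) +
        C (1 - 2 * (E : ℝ)) * X * ((X - C 2) * (X - C 3) * R * Wp b f)) := by
    rw [smul_eq_C_mul, derivative_mul, derivative_mul, derivative_mul, derivative_X_sub_C,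
      derivative_X_sub_C, Sp, Tp, Q8]
    have e5 : (C 5 : ℝ[X]) = C 2 + C 3 := by rw [← C_add]; norm_num
    have e2 : (C 2 : ℝ[X]) = 1 + 1 := by rw [show (2 : ℝ) = 1 + 1 by norm_num, C_add, C_1]
    rw [e5]
    linear_combination (-(C 2 * R * (X ^ 2 - C 8))) * h3 + C 2 * R * Wp b f * (X ^ 2 - C 8) * X * e2
  rw [LW_apply, h4, map_smul, h1, smul_zero]

theorem Tp_nat : Tp.natDegree ≤ 4 := by
  rw [Tp, Q8]; compute_degree

theorem Tp_coeff : Tp.coeff 4 = 2 := by
  rw [Tp, Q8]
  compute_degree!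

theorem Sp_nat (b f E : ℕ) : (Sp b f E).natDegree ≤ 3 := by
  rw [Sp, Q8]; compute_degree

theorem Sp_expand (b f E : ℕ) : Sp b f E = C (6 + 2 * (b : ℝ) + 2 * f - 4 * E) * X ^ 3 +
    C (2 * (-5 - 3 * (b : ℝ) - 2 * f) - 10 * (1 - 2 * (E : ℝ))) * X ^ 2 +
    C (-16 * (2 + (b : ℝ) + f) + 12 * (1 - 2 * (E : ℝ))) * X +
    C (-16 * (-5 - 3 * (b : ℝ) - 2 * f)) := by
  rw [Sp, Q8]
  simp only [map_add, map_sub, map_mul, map_neg, map_natCast, map_ofNat, map_one]
  ring

theorem Sp_coeff (b f E : ℕ) : (Sp b f E).coeff 3 = 6 + 2 * (b : ℝ) + 2 * f - 4 * E := by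
  rw [Sp_expand]
  simp only [coeff_add, coeff_C_mul, coeff_X_pow, coeff_X, coeff_C]
  norm_num

theorem Sp_ne (b f E : ℕ) (h : 2 * E ≤ b + f + 2) (k : ℕ) :
    2 * (k : ℝ) + (Sp b f E).coeff 3 ≠ 0 := by
  rw [Sp_coeff]
  have h1 : (2 * (E : ℝ)) ≤ b + f + 2 := by exact_mod_cast h
  have h2 : (0 : ℝ) ≤ k := Nat.cast_nonneg k
  have : 0 < 2 * (k : ℝ) + (6 + 2 * (b : ℝ) + 2 * f - 4 * E) := by linarith
  exact this.ne'

/-- No nonzero polynomial is annihilated together with all its multiples. -/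
theorem not_annih (x : ℝ) (E : ℕ) (G : ℝ[X]) (hG : G ≠ 0) (h : ∀ U, Lam x E (G * U) = 0) :
    False := by
  -- the ideal of annihilated polynomials
  let I : Ideal ℝ[X] :=
    { carrier := {G | ∀ U, Lam x E (G * U) = 0}
      add_mem' := by
        intro a b ha hb U
        rw [add_mul, map_add, ha U, hb U, add_zero]
      zero_mem' := by intro U; simp
      smul_mem' := by
        intro c a ha U
        rw [smul_eq_mul, mul_comm c a, mul_assoc]
        exact ha _ }
  have hI : I ≠ ⊥ := by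
    intro h0
    have : G ∈ I := h
    rw [h0] at this
    exact hG (by simpa using this)
  obtain ⟨g, hg⟩ := (IsPrincipalIdealRing.principal I).principal
  have hgI : I = Ideal.span {g} := hg
  have hg0 : g ≠ 0 := by
    rintro rfl
    apply hI
    rw [hgI]
    simp
  have hmem : ∀ P : ℝ[X], (∀ U, Lam x E (P * U) = 0) → g ∣ P := by
    intro P hP
    have : P ∈ I := hP
    rwa [hgI, Ideal.mem_span_singleton] at this
  have hgann : ∀ U, Lam x E (g * U) = 0 := by
    have : g ∈ I := by rw [hgI]; exact Ideal.mem_span_singleton_self g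
    exact this
  -- integration by parts
  have key : ∀ V : ℝ[X], Lam x E (derivative g * (X ^ 2 - C 8) * V) =
      4 * (-4) ^ (-(E : ℤ)) * (g.eval 2 * V.eval 2) := by
    intro V
    have h1 := Lam_ftc x E (g * V)
    rw [eval_mul] at h1
    rw [← h1]
    have h2 : derivative (g * V) * (X ^ 2 - C 8) + C (1 - 2 * (E : ℝ)) * X * (g * V) =
        derivative g * (X ^ 2 - C 8) * V +
          g * (derivative V * (X ^ 2 - C 8) + C (1 - 2 * (E : ℝ)) * X * V) := by
      rw [derivative_mul]; ring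
    rw [h2, map_add, hgann, add_zero]
  have hc : (4 : ℝ) * (-4) ^ (-(E : ℤ)) ≠ 0 := mul_ne_zero (by norm_num) (zpow_ne_zero _ (by norm_num))
  have hQ2 : ((X : ℝ[X]) ^ 2 - C 8).eval 2 ≠ 0 := by norm_num
  by_cases h2 : g.eval 2 = 0
  · -- `g` vanishes at `2`
    have h3 : g ∣ derivative g * (X ^ 2 - C 8) := hmem _ fun U => by
      rw [key, h2, zero_mul, mul_zero]
    have hm := rootMultiplicity_pos hg0 |>.2 h2
    have hdg : derivative g ≠ 0 := by
      intro h0
      have := derivative_eq_zero.1 h0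
      obtain ⟨c, hc'⟩ := natDegree_eq_zero.1 this
      rw [← hc', eval_C] at h2
      exact hg0 (by rw [← hc', h2, C_0])
    have h4 : derivative g * ((X : ℝ[X]) ^ 2 - C 8) ≠ 0 :=
      mul_ne_zero hdg (by
        intro h0
        rw [h0] at hQ2
        simp at hQ2)
    have h5 := rootMultiplicity_le_rootMultiplicity_of_dvd h4 h3 2
    rw [rootMultiplicity_mul h4, derivative_rootMultiplicity_of_root h2,
      rootMultiplicity_eq_zero (p := (X : ℝ[X]) ^ 2 - C 8) (by exact hQ2)] at h5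
    omega
  · have h3 : g ∣ derivative g * (X ^ 2 - C 8) * (X - C 2) := hmem _ fun U => by
      rw [mul_assoc, key]
      simp
    have hco : IsCoprime g (X - C 2) := by
      have := (irreducible_X_sub_C (2 : ℝ)).coprime_iff_not_dvd.2 (fun h0 => h2 (dvd_iff_isRoot.1 h0))
      exact this.symm
    have h4 : g ∣ derivative g * (X ^ 2 - C 8) := hco.dvd_of_dvd_mul_right h3
    obtain ⟨c, hc'⟩ := h4
    have h5 := key 1
    rw [hc', mul_assoc, hgann] at h5
    simp only [eval_one, mul_one] at h5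
    exact (mul_ne_zero hc h2) h5.symm

theorem nonvan_HM (x : ℝ) (b f E K : ℕ) (h : 2 * E ≤ b + f + 2) :
    ∃ K', K ≤ K' ∧ K' ≤ K + 2 ∧ (NV.HM (LW x b f E) K').det ≠ 0 := by
  by_contra hcon
  push Not at hcon
  have hex : ∃ n, n < K ∧ (NV.HM (LW x b f E) n).det ≠ 0 ∧
      ∀ k, n < k → k ≤ K + 2 → (NV.HM (LW x b f E) k).det = 0 := by
    have hP : ∀ N, N ≤ K → (∀ k, N ≤ k → k ≤ K + 2 → (NV.HM (LW x b f E) k).det = 0) →
        ∃ n, n < K ∧ (NV.HM (LW x b f E) n).det ≠ 0 ∧
          ∀ k, n < k → k ≤ K + 2 → (NV.HM (LW x b f E) k).det = 0 := by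
      intro N
      induction N with
      | zero =>
        intro _ h
        exfalso
        have := h 0 le_rfl (by omega)
        simp at this
      | succ N ih =>
        intro hN h
        by_cases h0 : (NV.HM (LW x b f E) N).det = 0
        · refine ih (by omega) fun k hk1 hk2 => ?_
          rcases Nat.eq_or_lt_of_le hk1 with rfl | h'
          · exact h0
          · exact h k h' hk2
        · exact ⟨N, by omega, h0, fun k hk1 hk2 => h k hk1 hk2⟩
    exact hP K le_rfl fun k h1 h2 => hcon k h1 h2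
  obtain ⟨n, hn, hn0, hz⟩ := hex
  obtain ⟨P, hP, hPU⟩ := NV.semiclassical (LW x b f E) (Sp b f E) Tp (pearson x b f E) Tp_nat
    Tp_coeff (Sp_nat b f E) (Sp_ne b f E h) hn0 (hz _ (by omega) (by omega))
    (hz _ (by omega) (by omega)) (hz _ (by omega) (by omega))
  have hW0 : Wp b f ≠ 0 := by
    rw [Wp]
    exact mul_ne_zero (pow_ne_zero _ (X_sub_C_ne_zero 2)) (pow_ne_zero _ (X_sub_C_ne_zero 3))
  refine not_annih x E (P * Wp b f) (mul_ne_zero hP.ne_zero hW0) fun U => ?_
  have h1 := hPU U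
  rw [LW_apply] at h1
  rw [← h1]
  congr 1
  ring

/-- **Target 3** -/
theorem nonVan : NonVan := by
  intro x b f E K h
  obtain ⟨K', h1, h2, h3⟩ := nonvan_HM x b f E K h
  obtain ⟨κ, rfl⟩ := Nat.exists_eq_add_of_le h1
  exact ⟨κ, by omega, h3⟩

end Vale.Agent.P021.R2.H636
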