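import Vale.Agent.P021.R2.H636.PathVal

/-!
# More polygons in `UU`
-/

set_option autoImplicit false

namespace Vale.Agent.P021.R2.H636

open Vale.Agent.P021.Det (PathIn)

theorem s8_gt' : (2828427 / 1000000 : ℝ) < s8 := by
  rw [s8, Real.lt_sqrt (by norm_num)]; norm_num

theorem s8_lt' : s8 < (2828428 / 1000000 : ℝ) := by
  rw [s8, Real.sqrt_lt' (by norm_num)]; norm_num

/-- a real segment between `-√8` and `√8` -/
theorem seg_UU_real {a b : ℂ} (ha : a.im = 0) (hb : b.im = 0) (ha1 : -s8 < a.re)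
    (ha2 : a.re < s8) (hb1 : -s8 < b.re) (hb2 : b.re < s8) : segment ℝ a b ⊆ UU := by
  rintro s ⟨t, u, ht, hu, htu, rfl⟩
  have him : (t • a + u • b).im = 0 := by simp [ha, hb]
  have hre : (t • a + u • b).re = t * a.re + u * b.re := by simp
  have hc := (convex_Ioo (-s8) s8) (⟨ha1, ha2⟩ : a.re ∈ Set.Ioo (-s8) s8)
    (⟨hb1, hb2⟩ : b.re ∈ Set.Ioo (-s8) s8) ht hu htu
  simp only [smul_eq_mul, Set.mem_Ioo] at hc
  obtain ⟨h2, h1⟩ := hc
  refine ⟨him.ge, ?_, ?_⟩
  · intro h4
    have := congrArg Complex.re h4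
    rw [hre, Complex.ofReal_re] at this
    linarith
  · intro h4
    have := congrArg Complex.re h4
    rw [hre, Complex.neg_re, Complex.ofReal_re] at this
    linarith

/-- a polygon whose first vertex is in `UU`, with interior vertices in the open upper half
plane and last vertex in `UU` -/
theorem PathIn_UU_of : ∀ (l : List ℂ) (a w : ℂ), a ∈ UU → w ∈ UU → (∀ v ∈ l, 0 < v.im) →
    l ≠ [] → PathIn UU (a :: (l ++ [w])) := by
  intro l
  induction l with
  | nil => intro a w _ _ _ h; exact absurd rfl h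
  | cons b l ih =>
    intro a w ha hw hl _
    have hb : 0 < b.im := hl b (by simp)
    refine ⟨seg_UU ha (mem_UU_of_im hb) (Or.inr hb), ?_⟩
    by_cases h : l = []
    · subst h
      exact ⟨seg_UU (mem_UU_of_im hb) hw (Or.inl hb), trivial⟩
    · exact ih b w (mem_UU_of_im hb) hw (fun v hv => hl v (by simp [hv])) h

end Vale.Agent.P021.R2.H636
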