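import Vale.Agent.P021.Bdl.B1

/-!
# SPEC: the functional of the cover `r = z + 2 / z` and the three parts of the proof

`Λ(F) = ∫_{1-i}^{1+i} F(r) ω`, `ω = dz/(i z)`, `r = z + 2/z`, `y = z - 2/z`, `y^2 = r^2 - 8`,
`dr = i y ω`, `dy = i r ω`, `Λ(1) = π/2`.  `M_{k,e} = Λ(r^k y^{2e})`, `e` an integer;
`(2e+2) M_{0,e+1} + 8(2e+1) M_{0,e} = 8(-4)^e`, `M_{1,e} = 4(-4)^e/(2e+1)`,
`M_{k+2,e} = M_{k,e+1} + 8 M_{k,e}`; consequence: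
`(k+1+2e) M_{k+1,e} = 8 k M_{k-1,e} + 4 2^k (-4)^e`.
-/

set_option autoImplicit false

open Polynomial Finset Filter

namespace Vale.Agent.P021.R2.H636

/-- coefficient of `x/2` in `Λ_x(y^{2e})`, `e ≥ 0` (it is `(-2)^e * (2e).choose e`) -/
def apos : ℕ → ℚ
  | 0 => 1
  | e + 1 => -8 * (2 * (e : ℚ) + 1) * apos e / (2 * (e : ℚ) + 2)

/-- rational part of `Λ_x(y^{2e})`, `e ≥ 0` -/
def bpos : ℕ → ℚ
  | 0 => 0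
  | e + 1 => (8 * (-4) ^ e - 8 * (2 * (e : ℚ) + 1) * bpos e) / (2 * (e : ℚ) + 2)

/-- `Λ_x(y^{-2(j+1)})` (rational) -/
def bneg : ℕ → ℚ
  | 0 => 1 / 4
  | j + 1 => -(8 * (-1 / 4) ^ (j + 2) + 2 * ((j : ℚ) + 1) * bneg j) / (8 * (2 * (j : ℚ) + 3))

/-- coefficient of `x/2` in `Λ_x(y^{2e})` -/
def aq : ℤ → ℚ
  | Int.ofNat e => apos e
  | Int.negSucc _ => 0

/-- rational part of `Λ_x(y^{2e})` -/
def bq : ℤ → ℚ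
  | Int.ofNat e => bpos e
  | Int.negSucc j => bneg j

/-- `Λ_x(r y^{2e})` (rational) -/
def cq (e : ℤ) : ℚ := 4 * (-4) ^ e / (2 * (e : ℚ) + 1)

/-- coefficient of `x/2` in `Λ_x(r^k y^{2e})` -/
def mA (k : ℕ) (e : ℤ) : ℚ :=
  if Even k then ∑ i ∈ range (k / 2 + 1), ((k / 2).choose i : ℚ) * 8 ^ (k / 2 - i) * aq (e + i)
  else 0

/-- rational part of `Λ_x(r^k y^{2e})` -/
def mB (k : ℕ) (e : ℤ) : ℚ :=
  if Even k then ∑ i ∈ range (k / 2 + 1), ((k / 2).choose i : ℚ) * 8 ^ (k / 2 - i) * bq (e + i)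
  else ∑ i ∈ range (k / 2 + 1), ((k / 2).choose i : ℚ) * 8 ^ (k / 2 - i) * cq (e + i)

/-- the moment `Λ_x(r^k (r^2-8)^{-E})` -/
noncomputable def mom (x : ℝ) (E k : ℕ) : ℝ :=
  (mA k (-(E : ℤ)) : ℝ) * (x / 2) + (mB k (-(E : ℤ)) : ℝ)

/-- `Λ_x(F (r^2-8)^{-E})` -/
noncomputable def Lam (x : ℝ) (E : ℕ) : ℝ[X] →ₗ[ℝ] ℝ :=
  Polynomial.lsum fun k => (mom x E k) • (LinearMap.id : ℝ →ₗ[ℝ] ℝ)

/-- the coefficient of `x` in `Λ_x(F (r^2-8)^{-E})` -/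
noncomputable def Bet (E : ℕ) : ℝ[X] →ₗ[ℝ] ℝ :=
  Polynomial.lsum fun k => ((mA k (-(E : ℤ)) : ℝ) / 2) • (LinearMap.id : ℝ →ₗ[ℝ] ℝ)

/-- the weight polynomial `(r-2)^b (r-3)^f` -/
noncomputable def Wp (b f : ℕ) : ℝ[X] := (X - C 2) ^ b * (X - C 3) ^ f

/-- the Hankel matrix `(Λ_x(r^{i+j} (r-2)^b (r-3)^f (r^2-8)^{-E}))_{i,j<K}` -/
noncomputable def HM (x : ℝ) (b f E K : ℕ) : Matrix (Fin K) (Fin K) ℝ :=
  Matrix.of fun i j => Lam x E (X ^ ((i : ℕ) + (j : ℕ)) * Wp b f)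

/-! ### Part 1: arithmetic -/

/-- **Target 1** (arithmetic): `ArithLower K0 b0 f0 E0 c` with `c` the cost -/
def ArithLower (K0 b0 f0 E0 : ℕ) (c : ℝ) : Prop :=
  ∀ ε : ℝ, 0 < ε → ∀ᶠ n : ℕ in atTop, ∀ κ ≤ 2, ∀ p q : ℤ, 0 < q →
    (HM ((p : ℝ) / q) (b0 * n) (f0 * n) (E0 * n) (K0 * n + κ)).det ≠ 0 →
    Real.exp (-(c + ε) * (n : ℝ) ^ 2) ≤
      (q : ℝ) ^ (K0 * n + κ) *
        |(HM ((p : ℝ) / q) (b0 * n) (f0 * n) (E0 * n) (K0 * n + κ)).det|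

/-! ### Part 2: Archimedean upper bound -/

/-- the functionals `L E` are bounded by sup norms on `S` (integrand `F y^{-2E}`) -/
def FunBound (L : ℕ → ℝ[X] →ₗ[ℝ] ℝ) (S : Set ℂ) : Prop :=
  ∃ C : ℝ, 0 < C ∧ ∀ (E : ℕ) (F : ℝ[X]) (M : ℝ),
    (∀ s ∈ S, ‖aeval s F‖ ≤ M * ‖s ^ 2 - 8‖ ^ E) → |L E F| ≤ C * M

/-- Data certifying the Archimedean bound: monic polynomials `F_0=1, ..., F_N` of degrees
`0 = d_0 < ... < d_N = K0` and numbers `L_j` with `|F_j^2 W_1 (r^2-8)^{-E0}| ≤ e^{L_j}` on `S`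
and `≤ e^{L_j + w}` on `T`. All sets are in the `r`-plane. -/
structure Cert (K0 b0 f0 E0 N : ℕ) (w : ℝ) (S T : Set ℂ) where
  F : ℕ → ℝ[X]
  d : ℕ → ℕ
  L : ℕ → ℝ
  monic : ∀ j, j ≤ N → (F j).Monic
  deg : ∀ j, j ≤ N → (F j).natDegree = d j
  d_zero : d 0 = 0
  d_last : d N = K0
  d_lt : ∀ j, j < N → d j < d (j + 1)
  path : ∀ j, j ≤ N → ∀ s ∈ S,
    ‖aeval s (F j)‖ ^ 2 * ‖aeval s (Wp b0 f0)‖ ≤ Real.exp (L j) * ‖s ^ 2 - 8‖ ^ E0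
  circ : ∀ j, j ≤ N → ∀ s ∈ T,
    ‖aeval s (F j)‖ ^ 2 * ‖aeval s (Wp b0 f0)‖ ≤ Real.exp (L j + w) * ‖s ^ 2 - 8‖ ^ E0

/-- the Archimedean exponent of a certificate -/
noncomputable def Cert.total {K0 b0 f0 E0 N : ℕ} {w : ℝ} {S T : Set ℂ}
    (c : Cert K0 b0 f0 E0 N w S T) : ℝ :=
  ∑ j ∈ Finset.range N, ((c.d (j + 1) : ℝ) - c.d j) * (c.L j + c.L (j + 1)) / 2

/-- **Target 2** (Archimedean): follows from a certificate with total exponent `T` -/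
def ArchUpper (K0 b0 f0 E0 : ℕ) (w T : ℝ) : Prop :=
  ∀ ε : ℝ, 0 < ε → ∀ᶠ n : ℕ in atTop, ∀ κ ≤ 2, ∀ x : ℝ,
    |x - Real.pi| ≤ Real.exp (-w * n) →
      |(HM x (b0 * n) (f0 * n) (E0 * n) (K0 * n + κ)).det| ≤ Real.exp ((T + ε) * (n : ℝ) ^ 2)

/-! ### Part 3: non-vanishing -/

/-- **Target 3**: one of three consecutive determinants is nonzero -/
def NonVan : Prop := ∀ (x : ℝ) (b f E K : ℕ), 2 * E ≤ b + f + 2 →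
  ∃ κ ≤ 2, (HM x b f E (K + κ)).det ≠ 0

/-! ### Assembly -/

theorem final_of {K0 b0 f0 E0 : ℕ} {w c T μ0 : ℝ} (hK0 : 0 < K0) (hw : 0 < w)
    (hE : 2 * E0 ≤ b0 + f0) (h1 : ArithLower K0 b0 f0 E0 c) (h2 : ArchUpper K0 b0 f0 E0 w T)
    (h3 : NonVan) (hδ : 0 < -T - c) (hμ : w * K0 ≤ μ0 * (-T - c)) :
    irrationalityExponent Real.pi ≤ (μ0 : EReal) :=
  Det.core_bound (fun n κ x => (HM x (b0 * n) (f0 * n) (E0 * n) (K0 * n + κ)).det) K0 hK0 w c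
    T μ0 hw h1 h2 (fun n x => h3 x (b0 * n) (f0 * n) (E0 * n) (K0 * n) (by
      have : 2 * E0 * n ≤ (b0 + f0) * n := Nat.mul_le_mul_right n hE
      nlinarith)) hδ hμ

end Vale.Agent.P021.R2.H636
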