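import Vale.Agent.P021.R2.H636.Spec

/-!
# Relations between the moments
-/

set_option autoImplicit false

open Polynomial Finset

namespace Vale.Agent.P021.R2.H636

/-! ### the base relations -/

theorem aq_rec (e : ℤ) : (2 * (e : ℚ) + 2) * aq (e + 1) + 8 * (2 * (e : ℚ) + 1) * aq e = 0 := by
  rcases e with e | e
  · have h : (Int.ofNat e + 1 : ℤ) = Int.ofNat (e + 1) := rfl
    rw [h]
    simp only [aq, apos, Int.ofNat_eq_natCast, Int.cast_natCast]
    have : (2 * (e : ℚ) + 2) ≠ 0 := by positivity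
    field_simp
    ring
  · rcases e with _ | e
    · have h : (Int.negSucc 0 + 1 : ℤ) = Int.ofNat 0 := rfl
      rw [h]
      simp [aq, apos]
    · have h : (Int.negSucc (e + 1) + 1 : ℤ) = Int.negSucc e := rfl
      rw [h]
      simp [aq]

theorem bq_rec (e : ℤ) : (2 * (e : ℚ) + 2) * bq (e + 1) + 8 * (2 * (e : ℚ) + 1) * bq e =
    8 * (-4) ^ e := by
  rcases e with e | e
  · have h : (Int.ofNat e + 1 : ℤ) = Int.ofNat (e + 1) := rfl
    rw [h]
    simp only [bq, bpos, Int.ofNat_eq_natCast, Int.cast_natCast, zpow_natCast]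
    have : (2 * (e : ℚ) + 2) ≠ 0 := by positivity
    field_simp
    ring
  · rcases e with _ | e
    · have h : (Int.negSucc 0 + 1 : ℤ) = Int.ofNat 0 := rfl
      rw [h]
      simp only [bq, bneg, bpos, zpow_negSucc]
      norm_num
    · have h : (Int.negSucc (e + 1) + 1 : ℤ) = Int.negSucc e := rfl
      rw [h]
      simp only [bq, bneg, zpow_negSucc, Int.cast_negSucc]
      have h2 : (2 * (e : ℚ) + 3) ≠ 0 := by positivity
      have h3 : (-4 : ℚ) ^ (e + 1 + 1) ≠ 0 := by positivity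
      have h4 : (-1 / 4 : ℚ) ^ (e + 2) = ((-4 : ℚ) ^ (e + 1 + 1))⁻¹ := by
        rw [← inv_pow]
        norm_num
      rw [h4]
      push_cast
      field_simp
      ring

/-! ### binomial sums -/

/-- `∑ C(j,i) 8^(j-i) c(e+i)` -/
def SS (c : ℤ → ℚ) (j : ℕ) (e : ℤ) : ℚ :=
  ∑ i ∈ range (j + 1), (j.choose i : ℚ) * 8 ^ (j - i) * c (e + i)

theorem SS_zero (c : ℤ → ℚ) (e : ℤ) : SS c 0 e = c e := by simp [SS]

theorem SS_succ (c : ℤ → ℚ) (j : ℕ) (e : ℤ) : SS c (j + 1) e = SS c j (e + 1) + 8 * SS c j e := by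
  unfold SS
  rw [Finset.sum_range_succ' _ (j + 1), Finset.mul_sum]
  have h1 : ∑ i ∈ range (j + 1), ((j + 1).choose (i + 1) : ℚ) * 8 ^ (j + 1 - (i + 1)) *
      c (e + ((i + 1 : ℕ) : ℤ)) = ∑ i ∈ range (j + 1), (j.choose i : ℚ) * 8 ^ (j - i) *
      c (e + 1 + i) + ∑ i ∈ range (j + 1), (j.choose (i + 1) : ℚ) * 8 ^ (j - i) *
      c (e + 1 + i) := by
    rw [← Finset.sum_add_distrib]
    refine Finset.sum_congr rfl fun i _ => ?_
    rw [Nat.choose_succ_succ, Nat.add_sub_add_right]
    have : (e + ((i + 1 : ℕ) : ℤ)) = e + 1 + i := by push_cast; ring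
    rw [this]
    push_cast
    ring
  rw [h1]
  have h2 : ∑ i ∈ range (j + 1), 8 * ((j.choose i : ℚ) * 8 ^ (j - i) * c (e + i)) =
      ∑ i ∈ range (j + 1), (j.choose (i + 1) : ℚ) * 8 ^ (j - i) * c (e + 1 + i) +
      8 ^ (j + 1) * c e := by
    rw [Finset.sum_range_succ' _ j, Finset.sum_range_succ _ j]
    have h3 : ∀ i ∈ range j, 8 * ((j.choose (i + 1) : ℚ) * 8 ^ (j - (i + 1)) *
        c (e + ((i + 1 : ℕ) : ℤ))) = (j.choose (i + 1) : ℚ) * 8 ^ (j - i) * c (e + 1 + i) := by
      intro i hi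
      have hi' := Finset.mem_range.1 hi
      have h4 : j - i = j - (i + 1) + 1 := by omega
      have : (e + ((i + 1 : ℕ) : ℤ)) = e + 1 + i := by push_cast; ring
      rw [this, h4, pow_succ]
      ring
    rw [Finset.sum_congr rfl h3]
    simp
    ring
  rw [h2]
  simp
  ring

theorem mA_even (j : ℕ) (e : ℤ) : mA (2 * j) e = SS aq j e := by
  simp [mA, SS]

theorem mB_even (j : ℕ) (e : ℤ) : mB (2 * j) e = SS bq j e := by
  simp [mB, SS]

theorem mA_odd (j : ℕ) (e : ℤ) : mA (2 * j + 1) e = 0 := by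
  rw [mA, if_neg]
  simp

theorem mB_odd (j : ℕ) (e : ℤ) : mB (2 * j + 1) e = SS cq j e := by
  rw [mB, if_neg (by simp), SS]
  have : (2 * j + 1) / 2 = j := by omega
  rw [this]

/-! ### abstract moment families -/

/-- the relations satisfied by the moments; `s` is the size of the boundary term -/
structure IsMom (M : ℕ → ℤ → ℝ) (s : ℝ) : Prop where
  pascal : ∀ k e, M (k + 2) e = M k (e + 1) + 8 * M k e
  r0 : ∀ e : ℤ, (2 * (e : ℝ) + 1) * M 1 e = 4 * (-4) ^ e * s
  r1 : ∀ e : ℤ, (2 * (e : ℝ) + 2) * M 2 e = 8 * M 0 e + 8 * (-4) ^ e * s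

theorem isMom_mA : IsMom (fun k e => (mA k e : ℝ)) 0 where
  pascal k e := by
    rcases Nat.even_or_odd' k with ⟨j, rfl | rfl⟩
    · rw [show 2 * j + 2 = 2 * (j + 1) by ring, mA_even, mA_even, mA_even, SS_succ]
      push_cast
      ring
    · rw [show 2 * j + 1 + 2 = 2 * (j + 1) + 1 by ring, mA_odd, mA_odd, mA_odd]
      simp
  r0 e := by
    have := mA_odd 0 e
    simp only [mul_zero, zero_add] at this
    rw [this]
    simp
  r1 e := by
    have h1 := mA_even 0 e
    have h2 := mA_even 1 e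
    simp only [mul_zero, mul_one] at h1 h2
    rw [h1, h2, SS_succ, SS_zero, SS_zero]
    have h := aq_rec e
    have h' : ((2 * (e : ℚ) + 2) * aq (e + 1) + 8 * (2 * (e : ℚ) + 1) * aq e : ℝ) = 0 := by
      exact_mod_cast h
    push_cast at h' ⊢
    linear_combination h'

theorem isMom_mB : IsMom (fun k e => (mB k e : ℝ)) 1 where
  pascal k e := by
    rcases Nat.even_or_odd' k with ⟨j, rfl | rfl⟩
    · rw [show 2 * j + 2 = 2 * (j + 1) by ring, mB_even, mB_even, mB_even, SS_succ]
      push_cast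
      ring
    · rw [show 2 * j + 1 + 2 = 2 * (j + 1) + 1 by ring, mB_odd, mB_odd, mB_odd, SS_succ]
      push_cast
      ring
  r0 e := by
    have := mB_odd 0 e
    simp only [mul_zero, zero_add] at this
    rw [this, SS_zero, cq]
    have h : (2 * (e : ℝ) + 1) ≠ 0 := by
      have : (2 * e + 1 : ℤ) ≠ 0 := by omega
      exact_mod_cast this
    push_cast
    field_simp
  r1 e := by
    have h1 := mB_even 0 e
    have h2 := mB_even 1 e
    simp only [mul_zero, mul_one] at h1 h2
    rw [h1, h2, SS_succ, SS_zero, SS_zero]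
    have h := bq_rec e
    have h' : (((2 * (e : ℚ) + 2) * bq (e + 1) + 8 * (2 * (e : ℚ) + 1) * bq e : ℚ) : ℝ) =
        ((8 * (-4) ^ e : ℚ) : ℝ) := by
      rw [h]
    push_cast at h' ⊢
    linear_combination h'

theorem IsMom.add {M N : ℕ → ℤ → ℝ} {s t : ℝ} (hM : IsMom M s) (hN : IsMom N t) :
    IsMom (fun k e => M k e + N k e) (s + t) where
  pascal k e := by simp only [hM.pascal, hN.pascal]; ring
  r0 e := by linear_combination hM.r0 e + hN.r0 e
  r1 e := by linear_combination hM.r1 e + hN.r1 e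

theorem IsMom.smul {M : ℕ → ℤ → ℝ} {s : ℝ} (c : ℝ) (hM : IsMom M s) :
    IsMom (fun k e => c * M k e) (c * s) where
  pascal k e := by simp only [hM.pascal]; ring
  r0 e := by linear_combination c * hM.r0 e
  r1 e := by linear_combination c * hM.r1 e

/-- integration by parts -/
theorem IsMom.ftc {M : ℕ → ℤ → ℝ} {s : ℝ} (h : IsMom M s) : ∀ (k : ℕ) (e : ℤ),
    ((k : ℝ) + 2 + 2 * e) * M (k + 2) e =
      8 * ((k : ℝ) + 1) * M k e + 4 * 2 ^ (k + 1) * (-4) ^ e * s := by
  intro k
  induction k using Nat.twoStepInduction with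
  | zero =>
    intro e
    have := h.r1 e
    push_cast
    linear_combination this
  | one =>
    intro e
    have h1 := h.r0 e
    have h2 := h.r0 (e + 1)
    have h3 := h.pascal 1 e
    have h4 : (-4 : ℝ) ^ (e + 1) = (-4) ^ e * (-4) := zpow_add_one₀ (by norm_num) e
    rw [h4] at h2
    push_cast at h2 ⊢
    rw [show (1 + 2 : ℕ) = 3 by rfl] at *
    linear_combination h2 + 8 * h1 + (2 * (e : ℝ) + 3) * h3
  | more k ih _ =>
    intro e
    have h1 := ih e
    have h2 := ih (e + 1)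
    have h3 := h.pascal (k + 2) e
    have h5 := h.pascal k e
    have h4 : (-4 : ℝ) ^ (e + 1) = (-4) ^ e * (-4) := zpow_add_one₀ (by norm_num) e
    rw [h4] at h2
    push_cast at h2 ⊢
    linear_combination h2 + ((k : ℝ) + 4 + 2 * e) * h3 + 8 * h1 - 8 * ((k : ℝ) + 1) * h5

/-- uniqueness -/
theorem IsMom.zero_of {N : ℕ → ℤ → ℝ} (h : IsMom N 0) (h0 : N 0 0 = 0) : ∀ k e, N k e = 0 := by
  have hodd : ∀ e : ℤ, (2 * (e : ℝ) + 1) ≠ 0 := by
    intro e
    have : (2 * e + 1 : ℤ) ≠ 0 := by omega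
    exact_mod_cast this
  have hN1 : ∀ e, N 1 e = 0 := by
    intro e
    have := h.r0 e
    rw [mul_zero] at this
    exact (mul_eq_zero.1 this).resolve_left (hodd e)
  have hN0 : ∀ e, N 0 e = 0 := by
    intro e
    induction e using Int.induction_on with
    | zero => exact h0
    | succ i ih =>
      have h1 := h.r1 i
      have h2 := h.pascal 0 i
      rw [zero_add] at h2
      rw [h2, ih] at h1
      have h3 : (2 * ((i : ℤ) : ℝ) + 2) ≠ 0 := by
        have : (2 * (i : ℤ) + 2 : ℤ) ≠ 0 := by omega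
        exact_mod_cast this
      have h4 : (2 * ((i : ℤ) : ℝ) + 2) * N 0 ((i : ℤ) + 1) = 0 := by linear_combination h1
      exact (mul_eq_zero.1 h4).resolve_left h3
    | pred i ih =>
      have h1 := h.r1 (-(i : ℤ) - 1)
      have h2 := h.pascal 0 (-(i : ℤ) - 1)
      rw [zero_add, sub_add_cancel, ih] at h2
      rw [h2] at h1
      have h4 : (2 * ((-(i : ℤ) - 1 : ℤ) : ℝ) + 1) * N 0 (-(i : ℤ) - 1) = 0 := by
        linear_combination h1 / 8
      exact (mul_eq_zero.1 h4).resolve_left (hodd _)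
  intro k
  induction k using Nat.twoStepInduction with
  | zero => exact hN0
  | one => exact hN1
  | more k ih _ =>
    intro e
    rw [h.pascal, ih, ih]
    ring

theorem mA_zero_zero : mA 0 0 = 1 := by
  have := mA_even 0 0
  simp only [mul_zero] at this
  rw [this, SS_zero]
  rfl

theorem mB_zero_zero : mB 0 0 = 0 := by
  have := mB_even 0 0
  simp only [mul_zero] at this
  rw [this, SS_zero]
  rfl

/-- every moment family is a combination of `mA` and `mB` -/
theorem IsMom.eq {M : ℕ → ℤ → ℝ} {s : ℝ} (h : IsMom M s) (k : ℕ) (e : ℤ) :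
    M k e = M 0 0 * mA k e + s * mB k e := by
  have h1 := (h.add (isMom_mA.smul (-(M 0 0)))).add (isMom_mB.smul (-s))
  have h2 : s + -(M 0 0) * 0 + -s * 1 = 0 := by ring
  rw [h2] at h1
  have h3 := h1.zero_of (by rw [mA_zero_zero, mB_zero_zero]; push_cast; ring) k e
  linear_combination h3

/-! ### the functional -/

theorem Lam_X_pow (x : ℝ) (E k : ℕ) : Lam x E (X ^ k) = mom x E k := by
  rw [Lam, ← Polynomial.monomial_one_right_eq_X_pow]
  simp [Polynomial.lsum_apply]

theorem Bet_X_pow (E k : ℕ) : Bet E (X ^ k) = (mA k (-(E : ℤ)) : ℝ) / 2 := by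
  rw [Bet, ← Polynomial.monomial_one_right_eq_X_pow]
  simp [Polynomial.lsum_apply]

theorem Lam_eq_add (x y : ℝ) (E : ℕ) (F : ℝ[X]) : Lam x E F = Lam y E F + (x - y) * Bet E F := by
  induction F using Polynomial.induction_on' with
  | add p q hp hq => rw [map_add, map_add, map_add, hp, hq]; ring
  | monomial k c =>
    have h1 : (monomial k c : ℝ[X]) = c • X ^ k := by
      rw [← C_mul_X_pow_eq_monomial, smul_eq_C_mul]
    rw [h1, map_smul, map_smul, map_smul, Lam_X_pow, Lam_X_pow, Bet_X_pow, mom, mom]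
    simp only [smul_eq_mul]
    ring

theorem isMom_x (x : ℝ) : IsMom (fun k e => (mA k e : ℝ) * (x / 2) + (mB k e : ℝ)) 1 := by
  have h := (isMom_mA.smul (x / 2)).add isMom_mB
  have h2 : x / 2 * 0 + 1 = (1 : ℝ) := by ring
  rw [h2] at h
  refine ⟨fun k e => ?_, fun e => ?_, fun e => ?_⟩
  · linear_combination h.pascal k e
  · linear_combination h.r0 e
  · linear_combination h.r1 e

/-- multiplication by `r^2-8` -/
theorem Lam_mul_Q (x : ℝ) (E : ℕ) (F : ℝ[X]) : Lam x (E + 1) ((X ^ 2 - C 8) * F) = Lam x E F := by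
  induction F using Polynomial.induction_on' with
  | add p q hp hq => rw [mul_add, map_add, map_add, hp, hq]
  | monomial k c =>
    have h1 : (monomial k c : ℝ[X]) = c • X ^ k := by
      rw [← C_mul_X_pow_eq_monomial, smul_eq_C_mul]
    rw [h1, mul_smul_comm, map_smul, map_smul]
    congr 1
    have h2 : (X ^ 2 - C 8 : ℝ[X]) * X ^ k = X ^ (k + 2) - (8 : ℝ) • X ^ k := by
      rw [smul_eq_C_mul]; ring
    rw [h2, map_sub, map_smul, Lam_X_pow, Lam_X_pow, Lam_X_pow]
    have h3 := (isMom_x x).pascal k (-((E + 1 : ℕ) : ℤ))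
    simp only [mom, smul_eq_mul]
    have h4 : (-((E + 1 : ℕ) : ℤ) + 1) = -(E : ℤ) := by push_cast; ring
    rw [h4] at h3
    linear_combination h3

/-- **integration by parts** for the functional -/
theorem Lam_ftc (x : ℝ) (E : ℕ) (G : ℝ[X]) :
    Lam x E (derivative G * (X ^ 2 - C 8) + C (1 - 2 * (E : ℝ)) * X * G) =
      4 * (-4) ^ (-(E : ℤ)) * G.eval 2 := by
  induction G using Polynomial.induction_on' with
  | add p q hp hq =>
    rw [derivative_add, eval_add]
    have : (derivative p + derivative q) * (X ^ 2 - C 8) + C (1 - 2 * (E : ℝ)) * X * (p + q) =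
      (derivative p * (X ^ 2 - C 8) + C (1 - 2 * (E : ℝ)) * X * p) +
      (derivative q * (X ^ 2 - C 8) + C (1 - 2 * (E : ℝ)) * X * q) := by ring
    rw [this, map_add, hp, hq]
    ring
  | monomial k c =>
    have h1 : (monomial k c : ℝ[X]) = c • X ^ k := by
      rw [← C_mul_X_pow_eq_monomial, smul_eq_C_mul]
    rw [h1, derivative_smul, smul_mul_assoc, mul_smul_comm, ← smul_add, map_smul, eval_smul]
    have key : Lam x E (derivative (X ^ k) * (X ^ 2 - C 8) + C (1 - 2 * (E : ℝ)) * X * X ^ k) =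
        4 * (-4) ^ (-(E : ℤ)) * 2 ^ k := by
      rcases k with _ | k
      · have h2 := (isMom_x x).r0 (-(E : ℤ))
        have h3 : derivative ((X : ℝ[X]) ^ 0) * (X ^ 2 - C 8) + C (1 - 2 * (E : ℝ)) * X * X ^ 0 =
            (1 - 2 * (E : ℝ)) • X ^ 1 := by
          rw [smul_eq_C_mul]; simp
        rw [h3, map_smul, Lam_X_pow, mom, smul_eq_mul]
        push_cast at h2
        linear_combination h2
      · have h2 := (isMom_x x).ftc k (-(E : ℤ))
        have h3 : derivative ((X : ℝ[X]) ^ (k + 1)) * (X ^ 2 - C 8) +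
            C (1 - 2 * (E : ℝ)) * X * X ^ (k + 1) =
            ((k : ℝ) + 2 - 2 * (E : ℝ)) • X ^ (k + 2) - (8 * ((k : ℝ) + 1)) • X ^ k := by
          rw [smul_eq_C_mul, smul_eq_C_mul, derivative_X_pow]
          simp only [Nat.cast_add, Nat.cast_one, Nat.add_sub_cancel, map_sub, map_add, map_mul,
            map_one, map_natCast, map_ofNat]
          ring
        rw [h3, map_sub, map_smul, map_smul, Lam_X_pow, Lam_X_pow, mom, mom, smul_eq_mul,
          smul_eq_mul]
        push_cast at h2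
        linear_combination h2
    rw [key]
    simp only [smul_eq_mul, eval_pow, eval_X]
    ring

end Vale.Agent.P021.R2.H636
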