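import Vale.Agent.P021.R2.H636.Mom
import Vale.Agent.P021.Bdl.B3

/-!
# Path representation of the functionals in the closed upper half `r`-plane
-/

set_option autoImplicit false

open Polynomial Finset

namespace Vale.Agent.P021.R2.H636

open Vale.Agent.P021.Det (segI pathI PathIn Path_len Path_len_nonneg Path_seg_mem Path_segI_smul
  Path_pathI_smul Path_pathI_zero)

/-! ### generic facts on polygon integrals -/

theorem segI_prim {V : Set ℂ} {f G : ℂ → ℂ} (hG : ∀ s ∈ V, HasDerivAt G (f s) s)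
    (hf : ∀ s ∈ V, ContinuousAt f s) {u v : ℂ} (huv : segment ℝ u v ⊆ V) :
    segI f u v = G v - G u := by
  have hγ : ∀ t : ℝ, HasDerivAt (fun t : ℝ => u + (t : ℂ) * (v - u)) (v - u) t := by
    intro t
    have h1 : HasDerivAt (fun t : ℝ => (t : ℂ)) 1 t := Complex.ofRealCLM.hasDerivAt
    simpa using (h1.mul_const (v - u)).const_add u
  have hder : ∀ t ∈ Set.uIcc (0 : ℝ) 1, HasDerivAt (fun t : ℝ => G (u + (t : ℂ) * (v - u)))
      (f (u + (t : ℂ) * (v - u)) * (v - u)) t := by
    intro t ht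
    rw [Set.uIcc_of_le zero_le_one] at ht
    exact (hG _ (huv (Path_seg_mem u v ht.1 ht.2))).comp t (hγ t)
  have hcont : ContinuousOn (fun t : ℝ => f (u + (t : ℂ) * (v - u)) * (v - u))
      (Set.uIcc (0 : ℝ) 1) := by
    intro t ht
    rw [Set.uIcc_of_le zero_le_one] at ht
    apply ContinuousAt.continuousWithinAt
    apply ContinuousAt.mul _ continuousAt_const
    exact ContinuousAt.comp (f := fun t : ℝ => u + (t : ℂ) * (v - u))
      (hf _ (huv (Path_seg_mem u v ht.1 ht.2))) (hγ t).continuousAt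
  have h := intervalIntegral.integral_eq_sub_of_hasDerivAt hder hcont.intervalIntegrable
  unfold segI
  rw [intervalIntegral.integral_mul_const] at h
  rw [mul_comm, h]
  simp

theorem pathI_prim {V : Set ℂ} {f G : ℂ → ℂ} (hG : ∀ s ∈ V, HasDerivAt G (f s) s)
    (hf : ∀ s ∈ V, ContinuousAt f s) (l : List ℂ) (hs : PathIn V l)
    {u w : ℂ} (hh : l.head? = some u) (hl : l.getLast? = some w) : pathI f l = G w - G u := by
  induction l generalizing u with
  | nil => simp at hh
  | cons a l ih =>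
    cases l with
    | nil =>
      simp at hh hl
      subst hh; subst hl
      simp only [pathI, sub_self]
    | cons b l =>
      have hau : a = u := by simpa using hh
      have h1 := ih hs.2 (u := b) (by simp) (by simpa using hl)
      show segI f a b + pathI f (b :: l) = _
      rw [h1, segI_prim hG hf hs.1, ← hau]
      ring

theorem segI_add {V : Set ℂ} {f g : ℂ → ℂ} (hf : ∀ s ∈ V, ContinuousAt f s)
    (hg : ∀ s ∈ V, ContinuousAt g s) {u v : ℂ} (huv : segment ℝ u v ⊆ V) :
    segI (fun s => f s + g s) u v = segI f u v + segI g u v := by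
  have hint : ∀ f : ℂ → ℂ, (∀ s ∈ V, ContinuousAt f s) →
      IntervalIntegrable (fun t : ℝ => f (u + (t : ℂ) * (v - u))) MeasureTheory.volume 0 1 := by
    intro f hf
    apply ContinuousOn.intervalIntegrable
    intro t ht
    rw [Set.uIcc_of_le zero_le_one] at ht
    apply ContinuousAt.continuousWithinAt
    exact ContinuousAt.comp (f := fun t : ℝ => u + (t : ℂ) * (v - u))
      (hf _ (huv (Path_seg_mem u v ht.1 ht.2))) (by fun_prop)
  unfold segI
  rw [intervalIntegral.integral_add (hint f hf) (hint g hg)]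
  ring

theorem pathI_add {V : Set ℂ} {f g : ℂ → ℂ} (hf : ∀ s ∈ V, ContinuousAt f s)
    (hg : ∀ s ∈ V, ContinuousAt g s) (l : List ℂ) (hs : PathIn V l) :
    pathI (fun s => f s + g s) l = pathI f l + pathI g l := by
  induction l with
  | nil => simp [pathI]
  | cons a l ih =>
    cases l with
    | nil => simp [pathI]
    | cons b l =>
      show segI _ a b + pathI _ (b :: l) = (segI f a b + pathI f (b :: l)) +
        (segI g a b + pathI g (b :: l))
      rw [ih hs.2, segI_add hf hg hs.1]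
      ring

theorem pathI_sum {V : Set ℂ} {ι : Type} (t : Finset ι) (f : ι → ℂ → ℂ)
    (hf : ∀ i ∈ t, ∀ s ∈ V, ContinuousAt (f i) s) (l : List ℂ) (hs : PathIn V l) :
    pathI (fun s => ∑ i ∈ t, f i s) l = ∑ i ∈ t, pathI (f i) l := by
  classical
  induction t using Finset.induction_on with
  | empty => simpa using Path_pathI_zero l
  | insert i t hi ih =>
    have h1 : (fun s => ∑ j ∈ insert i t, f j s) = fun s => f i s + ∑ j ∈ t, f j s := by
      funext s; rw [Finset.sum_insert hi]
    rw [h1, Finset.sum_insert hi, pathI_add (hf i (Finset.mem_insert_self i t)) _ l hs,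
      ih (fun j hj => hf j (Finset.mem_insert_of_mem hj))]
    intro s hs'
    exact tendsto_finsetSum t (fun j hj => hf j (Finset.mem_insert_of_mem hj) s hs')

theorem norm_pathI_le (f : ℂ → ℂ) (M : ℝ) (S : Set ℂ) (l : List ℂ)
    (hS : PathIn S l) (hf : ∀ s ∈ S, ‖f s‖ ≤ M) : ‖pathI f l‖ ≤ Path_len l * M := by
  induction l with
  | nil => simp [pathI, Path_len]
  | cons a l ih =>
    cases l with
    | nil => simp [pathI, Path_len]
    | cons b l =>
      have h1 := ih hS.2
      show ‖segI f a b + pathI f (b :: l)‖ ≤ (‖b - a‖ + Path_len (b :: l)) * M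
      have h2 : ‖segI f a b‖ ≤ ‖b - a‖ * M := by
        unfold segI
        rw [norm_mul]
        apply mul_le_mul_of_nonneg_left _ (norm_nonneg _)
        have h3 := intervalIntegral.norm_integral_le_of_norm_le_const (a := (0 : ℝ)) (b := 1)
          (f := fun t : ℝ => f (a + (t : ℂ) * (b - a))) (C := M) ?_
        · simpa only [ge_iff_le, sub_zero, abs_one, mul_one] using h3
        · intro t ht
          rw [Set.uIoc_of_le zero_le_one] at ht
          exact hf _ (hS.1 (Path_seg_mem a b ht.1.le ht.2))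
      calc ‖segI f a b + pathI f (b :: l)‖ ≤ ‖segI f a b‖ + ‖pathI f (b :: l)‖ := norm_add_le _ _
        _ ≤ ‖b - a‖ * M + Path_len (b :: l) * M := add_le_add h2 h1
        _ = _ := by ring

/-! ### the logarithm cut along the negative imaginary axis -/

/-- the logarithm cut along the negative imaginary axis -/
noncomputable def clog (w : ℂ) : ℂ := Complex.log (-Complex.I * w) + Complex.I * (Real.pi / 2)

theorem clog_slit {w : ℂ} (h : 0 ≤ w.im) (h0 : w ≠ 0) : -Complex.I * w ∈ Complex.slitPlane := by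
  rw [Complex.mem_slitPlane_iff]
  have h1 : (-Complex.I * w).re = w.im := by simp
  have h2 : (-Complex.I * w).im = -w.re := by simp
  rw [h1, h2]
  rcases h.lt_or_eq with h3 | h3
  · exact Or.inl h3
  · right
    intro h4
    apply h0
    apply Complex.ext
    · simpa using h4
    · simpa using h3.symm

theorem clog_deriv {w : ℂ} (h : 0 ≤ w.im) (h0 : w ≠ 0) : HasDerivAt clog (1 / w) w := by
  have h1 : HasDerivAt (fun w : ℂ => -Complex.I * w) (-Complex.I) w := by
    simpa using (hasDerivAt_id w).const_mul (-Complex.I)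
  have h2 := (h1.clog (clog_slit h h0)).add_const (Complex.I * (Real.pi / 2))
  have h3 : -Complex.I / (-Complex.I * w) = 1 / w := by
    have : (-Complex.I) ≠ 0 := by simp
    field_simp
  rw [h3] at h2
  exact h2

theorem exp_clog {w : ℂ} (h0 : w ≠ 0) : Complex.exp (clog w) = w := by
  unfold clog
  rw [Complex.exp_add, Complex.exp_log (by simpa using h0)]
  have : Complex.exp (Complex.I * (Real.pi / 2)) = Complex.I := by
    rw [mul_comm]
    exact Complex.exp_pi_div_two_mul_I
  rw [this]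
  linear_combination (-w) * Complex.I_mul_I

theorem clog_im {w : ℂ} (h : 0 ≤ w.im) : 0 ≤ (clog w).im ∧ (clog w).im ≤ Real.pi := by
  have h1 : (clog w).im = Complex.arg (-Complex.I * w) + Real.pi / 2 := by
    unfold clog
    rw [Complex.add_im, Complex.log_im]
    congr 1
    rw [show (Real.pi : ℂ) / 2 = ((Real.pi / 2 : ℝ) : ℂ) by push_cast; rfl]
    simp
  have h2 : |Complex.arg (-Complex.I * w)| ≤ Real.pi / 2 := by
    rw [Complex.abs_arg_le_pi_div_two_iff]
    simpa using h
  rw [abs_le] at h2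
  rw [h1]
  constructor <;> linarith [h2.1, h2.2]

theorem clog_pos {t : ℝ} (ht : 0 < t) : clog (t : ℂ) = (Real.log t : ℂ) := by
  unfold clog
  rw [show -Complex.I * (t : ℂ) = (t : ℂ) * (-Complex.I) by ring,
    Complex.log_ofReal_mul ht (by simp), Complex.log_neg_I]
  ring

theorem clog_neg {t : ℝ} (ht : t < 0) : clog (t : ℂ) = (Real.log (-t) : ℂ) + Complex.I * Real.pi := by
  unfold clog
  rw [show -Complex.I * (t : ℂ) = ((-t : ℝ) : ℂ) * Complex.I by push_cast; ring,
    Complex.log_ofReal_mul (by linarith) (by simp), Complex.log_I]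
  ring

/-! ### the square root of `r^2 - 8` -/

/-- `√8` -/
noncomputable def s8 : ℝ := Real.sqrt 8

theorem s8_sq : s8 * s8 = 8 := Real.mul_self_sqrt (by norm_num)

theorem s8_sqC : (s8 : ℂ) * s8 = 8 := by exact_mod_cast congrArg (fun x : ℝ => (x : ℂ)) s8_sq

theorem s8_gt : 2 < s8 := by
  rw [s8, Real.lt_sqrt (by norm_num)]; norm_num

theorem s8_lt : s8 < 3 := by
  rw [s8, Real.sqrt_lt' (by norm_num)]; norm_num

/-- the closed upper half plane without `±√8` -/
def UU : Set ℂ := {r : ℂ | 0 ≤ r.im ∧ r ≠ (s8 : ℂ) ∧ r ≠ -(s8 : ℂ)}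

/-- the square root of `r^2-8` -/
noncomputable def YY (r : ℂ) : ℂ := Complex.exp ((clog (r - s8) + clog (r + s8)) / 2)

theorem UU_sub {r : ℂ} (h : r ∈ UU) : 0 ≤ (r - s8).im ∧ r - s8 ≠ 0 := by
  refine ⟨by simpa using h.1, sub_ne_zero.2 h.2.1⟩

theorem UU_add {r : ℂ} (h : r ∈ UU) : 0 ≤ (r + s8).im ∧ r + s8 ≠ 0 := by
  refine ⟨by simpa using h.1, ?_⟩
  intro h0
  exact h.2.2 (eq_neg_of_add_eq_zero_left h0)

theorem YY_ne (r : ℂ) : YY r ≠ 0 := Complex.exp_ne_zero _

theorem YY_sq {r : ℂ} (h : r ∈ UU) : YY r ^ 2 = r ^ 2 - 8 := by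
  unfold YY
  rw [← Complex.exp_nat_mul]
  have : ((2 : ℕ) : ℂ) * ((clog (r - s8) + clog (r + s8)) / 2) =
      clog (r - s8) + clog (r + s8) := by push_cast; ring
  rw [this, Complex.exp_add, exp_clog (UU_sub h).2, exp_clog (UU_add h).2]
  linear_combination (-1 : ℂ) * s8_sqC

theorem YY_deriv {r : ℂ} (h : r ∈ UU) : HasDerivAt YY (r / YY r) r := by
  have h1 := (clog_deriv (UU_sub h).1 (UU_sub h).2).comp r ((hasDerivAt_id r).sub_const (s8 : ℂ))
  have h2 := (clog_deriv (UU_add h).1 (UU_add h).2).comp r ((hasDerivAt_id r).add_const (s8 : ℂ))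
  have h3 := ((h1.add h2).div_const 2).cexp
  have e : Complex.exp ((clog (r - s8) + clog (r + s8)) / 2) *
      ((1 / (r - s8) * 1 + 1 / (r + s8) * 1) / 2) = r / YY r := by
    have hy := YY_sq h
    have hy0 := YY_ne r
    have ha := (UU_sub h).2
    have hb := (UU_add h).2
    change YY r * _ = _
    rw [eq_div_iff hy0]
    have : YY r * ((1 / (r - s8) * 1 + 1 / (r + s8) * 1) / 2) * YY r =
        YY r ^ 2 * ((1 / (r - s8) * 1 + 1 / (r + s8) * 1) / 2) := by ring
    rw [this, hy]
    field_simp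
    linear_combination (2 * r) * s8_sqC
  rw [← e]
  exact h3

theorem YY_im {r : ℂ} (h : r ∈ UU) : 0 ≤ (YY r).im := by
  unfold YY
  rw [Complex.exp_im]
  apply mul_nonneg (Real.exp_pos _).le
  have h1 := clog_im (UU_sub h).1
  have h2 := clog_im (UU_add h).1
  have h3 : ((clog (r - s8) + clog (r + s8)) / 2).im =
      ((clog (r - s8)).im + (clog (r + s8)).im) / 2 := by
    rw [show (2 : ℂ) = ((2 : ℝ) : ℂ) by norm_num, Complex.div_ofReal_im, Complex.add_im]
  rw [h3]
  apply Real.sin_nonneg_of_nonneg_of_le_pi <;> linarith [h1.1, h1.2, h2.1, h2.2]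

/-- `z = (r + y) / 2` -/
noncomputable def ZZ (r : ℂ) : ℂ := (r + YY r) / 2

theorem ZZ_mul {r : ℂ} (h : r ∈ UU) : ZZ r * ((r - YY r) / 2) = 2 := by
  unfold ZZ
  linear_combination (-1 / 4) * YY_sq h

theorem ZZ_ne {r : ℂ} (h : r ∈ UU) : ZZ r ≠ 0 := by
  intro h0
  have := ZZ_mul h
  rw [h0, zero_mul] at this
  norm_num at this

theorem ZZ_im {r : ℂ} (h : r ∈ UU) : 0 ≤ (ZZ r).im := by
  unfold ZZ
  rw [show (2 : ℂ) = ((2 : ℝ) : ℂ) by norm_num, Complex.div_ofReal_im, Complex.add_im]
  have := YY_im h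
  have := h.1
  positivity

/-- `log z` -/
noncomputable def GG (r : ℂ) : ℂ := clog (ZZ r)

theorem GG_deriv {r : ℂ} (h : r ∈ UU) : HasDerivAt GG (1 / YY r) r := by
  have h1 : HasDerivAt ZZ ((1 + r / YY r) / 2) r := by
    exact ((hasDerivAt_id r).add (YY_deriv h)).div_const 2
  have h2 := (clog_deriv (ZZ_im h) (ZZ_ne h)).comp r h1
  have e : 1 / ZZ r * ((1 + r / YY r) / 2) = 1 / YY r := by
    have hy0 := YY_ne r
    have hz := ZZ_ne h
    have : (1 + r / YY r) / 2 = ZZ r / YY r := by
      unfold ZZ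
      field_simp
      ring
    rw [this]
    field_simp
  rw [← e]
  exact h2

end Vale.Agent.P021.R2.H636
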