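import Vale.Agent.P021.R2.H636.Path

/-!
# Path representation of the functionals: values and bounds
-/

set_option autoImplicit false

open Polynomial Finset

namespace Vale.Agent.P021.R2.H636

open Vale.Agent.P021.Det (segI pathI PathIn Path_len Path_len_nonneg Path_seg_mem Path_segI_smul
  Path_pathI_smul Path_pathI_zero)

/-! ### special values -/

theorem s8_pos : 0 < s8 := by linarith [s8_gt]

theorem real_mem_UU {x : ℝ} (h : x ≠ s8) (h' : x ≠ -s8) : (x : ℂ) ∈ UU := by
  refine ⟨by simp, ?_, ?_⟩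
  · exact_mod_cast h
  · exact_mod_cast h'

theorem YY_big {x : ℝ} (h : s8 < x) :
    YY (x : ℂ) = (Real.exp ((Real.log (x - s8) + Real.log (x + s8)) / 2) : ℂ) := by
  have hs := s8_pos
  unfold YY
  rw [show (x : ℂ) - s8 = ((x - s8 : ℝ) : ℂ) by push_cast; rfl,
    show (x : ℂ) + s8 = ((x + s8 : ℝ) : ℂ) by push_cast; rfl, clog_pos (by linarith),
    clog_pos (by linarith)]
  push_cast
  rfl

theorem YY_small {x : ℝ} (h : x < -s8) :
    YY (x : ℂ) = -(Real.exp ((Real.log (s8 - x) + Real.log (-x - s8)) / 2) : ℂ) := by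
  have hs := s8_pos
  unfold YY
  rw [show (x : ℂ) - s8 = ((x - s8 : ℝ) : ℂ) by push_cast; rfl,
    show (x : ℂ) + s8 = ((x + s8 : ℝ) : ℂ) by push_cast; rfl, clog_neg (by linarith),
    clog_neg (by linarith)]
  have e : ((Real.log (-(x - s8)) : ℂ) + Complex.I * Real.pi +
      ((Real.log (-(x + s8)) : ℂ) + Complex.I * Real.pi)) / 2 =
      (((Real.log (s8 - x) + Real.log (-x - s8)) / 2 : ℝ) : ℂ) + Real.pi * Complex.I := by
    rw [show -(x - s8) = s8 - x by ring, show -(x + s8) = -x - s8 by ring]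
    push_cast
    ring
  rw [e, Complex.exp_add, Complex.exp_pi_mul_I]
  push_cast
  ring

theorem YY_two : YY 2 = 2 * Complex.I := by
  have hs := s8_gt
  unfold YY
  rw [show (2 : ℂ) - s8 = ((2 - s8 : ℝ) : ℂ) by push_cast; rfl,
    show (2 : ℂ) + s8 = ((2 + s8 : ℝ) : ℂ) by push_cast; rfl, clog_neg (by linarith),
    clog_pos (by linarith)]
  have h4 : Real.log (-(2 - s8)) + Real.log (2 + s8) = 2 * Real.log 2 := by
    rw [← Real.log_mul (by linarith) (by linarith)]
    have : -(2 - s8) * (2 + s8) = 2 ^ 2 := by nlinarith [s8_sq]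
    rw [this, Real.log_pow]
    norm_num
  have e : ((Real.log (-(2 - s8)) : ℂ) + Complex.I * Real.pi +
      (Real.log (2 + s8) : ℂ)) / 2 = (Real.log 2 : ℂ) + (Real.pi / 2) * Complex.I := by
    have h5 : (Real.log (-(2 - s8)) : ℂ) + (Real.log (2 + s8) : ℂ) = 2 * (Real.log 2 : ℂ) := by
      exact_mod_cast congrArg (fun x : ℝ => (x : ℂ)) h4
    linear_combination (1 / 2 : ℂ) * h5
  rw [e, Complex.exp_add, ← Complex.ofReal_exp, Real.exp_log (by norm_num)]
  rw [Complex.exp_pi_div_two_mul_I]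
  norm_num

theorem GG_big_im {x : ℝ} (h : s8 < x) : (GG (x : ℂ)).im = 0 := by
  have hs := s8_pos
  unfold GG ZZ
  rw [YY_big h]
  have hp := Real.exp_pos ((Real.log (x - s8) + Real.log (x + s8)) / 2)
  rw [show ((x : ℂ) + (Real.exp ((Real.log (x - s8) + Real.log (x + s8)) / 2) : ℂ)) / 2 =
    (((x + Real.exp ((Real.log (x - s8) + Real.log (x + s8)) / 2)) / 2 : ℝ) : ℂ) by
      push_cast; rfl, clog_pos (by linarith)]
  exact Complex.ofReal_im _

theorem GG_small_im {x : ℝ} (h : x < -s8) : (GG (x : ℂ)).im = Real.pi := by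
  have hs := s8_pos
  unfold GG ZZ
  rw [YY_small h]
  have hp := Real.exp_pos ((Real.log (s8 - x) + Real.log (-x - s8)) / 2)
  rw [show ((x : ℂ) + -(Real.exp ((Real.log (s8 - x) + Real.log (-x - s8)) / 2) : ℂ)) / 2 =
    (((x - Real.exp ((Real.log (s8 - x) + Real.log (-x - s8)) / 2)) / 2 : ℝ) : ℂ) by
      push_cast; ring, clog_neg (by linarith)]
  rw [Complex.add_im, Complex.ofReal_im]
  simp

theorem GG_two_im : (GG 2).im = Real.pi / 4 := by
  unfold GG ZZ
  rw [YY_two]
  unfold clog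
  rw [Complex.add_im, Complex.log_im]
  have h1 : -Complex.I * ((2 + 2 * Complex.I) / 2) =
      ((Real.sqrt 2 : ℝ) : ℂ) * (Complex.cos ((-(Real.pi / 4) : ℝ) : ℂ) +
        Complex.sin ((-(Real.pi / 4) : ℝ) : ℂ) * Complex.I) := by
    rw [← Complex.ofReal_cos, ← Complex.ofReal_sin, Real.cos_neg, Real.sin_neg,
      Real.cos_pi_div_four, Real.sin_pi_div_four]
    have h2 : ((Real.sqrt 2 : ℝ) : ℂ) * ((Real.sqrt 2 : ℝ) : ℂ) = 2 := by
      rw [← Complex.ofReal_mul, Real.mul_self_sqrt (by norm_num)]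
      norm_num
    push_cast
    linear_combination (-1 / 2 + Complex.I / 2) * h2 - Complex.I_mul_I
  rw [h1, Complex.arg_mul_cos_add_sin_mul_I (by positivity)]
  · rw [show (Real.pi : ℂ) / 2 = ((Real.pi / 2 : ℝ) : ℂ) by push_cast; rfl]
    simp
    ring
  · constructor <;> linarith [Real.pi_pos]

/-! ### the integrands -/

/-- `r^k y^{2e-1}` -/
noncomputable def fke (k : ℕ) (e : ℤ) (r : ℂ) : ℂ := r ^ k * YY r ^ (2 * e - 1)

theorem YY_cont {r : ℂ} (h : r ∈ UU) : ContinuousAt YY r := (YY_deriv h).continuousAt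

theorem fke_cont (k : ℕ) (e : ℤ) {r : ℂ} (h : r ∈ UU) : ContinuousAt (fke k e) r := by
  unfold fke
  exact (continuousAt_id.pow k).mul ((YY_cont h).zpow₀ _ (Or.inl (YY_ne r)))

theorem prim1 (e : ℤ) {r : ℂ} (h : r ∈ UU) :
    HasDerivAt (fun r => YY r ^ (2 * e + 1)) ((2 * (e : ℂ) + 1) * fke 1 e r) r := by
  have h1 := (hasDerivAt_zpow (2 * e + 1) (YY r) (Or.inl (YY_ne r))).comp r (YY_deriv h)
  have h0 := YY_ne r
  have e1 : ((2 * e + 1 : ℤ) : ℂ) * YY r ^ (2 * e + 1 - 1) * (r / YY r) =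
      (2 * (e : ℂ) + 1) * fke 1 e r := by
    unfold fke
    rw [show 2 * e + 1 - 1 = (2 * e - 1) + 1 by ring, zpow_add_one₀ h0]
    push_cast
    field_simp
  rw [← e1]
  exact h1

theorem prim2 (e : ℤ) {r : ℂ} (h : r ∈ UU) :
    HasDerivAt (fun r => r * YY r ^ (2 * e + 1))
      ((2 * (e : ℂ) + 2) * fke 2 e r + (-8) * fke 0 e r) r := by
  have h1 := (hasDerivAt_id r).mul (prim1 e h)
  have h0 := YY_ne r
  have e1 : 1 * YY r ^ (2 * e + 1) + id r * ((2 * (e : ℂ) + 1) * fke 1 e r) =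
      (2 * (e : ℂ) + 2) * fke 2 e r + (-8) * fke 0 e r := by
    unfold fke
    rw [show 2 * e + 1 = (2 * e - 1) + 2 by ring, zpow_add₀ h0]
    rw [show (YY r) ^ (2 : ℤ) = r ^ 2 - 8 by rw [← YY_sq h]; norm_cast]
    simp only [id_eq]
    ring
  rw [← e1]
  exact h1

theorem pathI_congr {V : Set ℂ} {f g : ℂ → ℂ} (h : ∀ s ∈ V, f s = g s) (l : List ℂ)
    (hs : PathIn V l) : pathI f l = pathI g l := by
  induction l with
  | nil => rfl
  | cons a l ih =>
    cases l with
    | nil => rfl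
    | cons b l =>
      show segI f a b + pathI f (b :: l) = segI g a b + pathI g (b :: l)
      rw [ih hs.2]
      congr 1
      unfold segI
      congr 1
      apply intervalIntegral.integral_congr
      intro t ht
      rw [Set.uIcc_of_le zero_le_one] at ht
      exact h _ (hs.1 (Path_seg_mem a b ht.1 ht.2))

theorem fke_pascal (l : List ℂ) (hs : PathIn UU l) (k : ℕ) (e : ℤ) :
    pathI (fke (k + 2) e) l = pathI (fke k (e + 1)) l + 8 * pathI (fke k e) l := by
  rw [← Path_pathI_smul, ← pathI_add (V := UU) (f := fke k (e + 1)) (g := fun s => 8 * fke k e s)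
    (fun s h => fke_cont _ _ h) (fun s h => continuousAt_const.mul (fke_cont _ _ h)) l hs]
  apply pathI_congr _ l hs
  intro s h
  unfold fke
  have h0 := YY_ne s
  rw [show 2 * (e + 1) - 1 = (2 * e - 1) + 2 by ring, zpow_add₀ h0,
    show (YY s) ^ (2 : ℤ) = s ^ 2 - 8 by rw [← YY_sq h]; norm_cast]
  ring

theorem fke_r0 (l : List ℂ) (hs : PathIn UU l) {u w : ℂ} (hh : l.head? = some u)
    (hl : l.getLast? = some w) (e : ℤ) :
    (2 * (e : ℂ) + 1) * pathI (fke 1 e) l = YY w ^ (2 * e + 1) - YY u ^ (2 * e + 1) := by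
  rw [← Path_pathI_smul]
  exact pathI_prim (V := UU) (fun s h => prim1 e h)
    (fun s h => continuousAt_const.mul (fke_cont _ _ h)) l hs hh hl

theorem fke_r1 (l : List ℂ) (hs : PathIn UU l) {u w : ℂ} (hh : l.head? = some u)
    (hl : l.getLast? = some w) (e : ℤ) :
    (2 * (e : ℂ) + 2) * pathI (fke 2 e) l + (-8) * pathI (fke 0 e) l =
      w * YY w ^ (2 * e + 1) - u * YY u ^ (2 * e + 1) := by
  rw [← Path_pathI_smul, ← Path_pathI_smul, ← pathI_add (V := UU)
    (f := fun s => (2 * (e : ℂ) + 2) * fke 2 e s) (g := fun s => (-8) * fke 0 e s)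
    (fun s h => continuousAt_const.mul (fke_cont _ _ h))
    (fun s h => continuousAt_const.mul (fke_cont _ _ h)) l hs]
  exact pathI_prim (V := UU) (fun s h => prim2 e h)
    (fun s h => (continuousAt_const.mul (fke_cont _ _ h)).add
      (continuousAt_const.mul (fke_cont _ _ h))) l hs hh hl

theorem fke_00 (l : List ℂ) (hs : PathIn UU l) {u w : ℂ} (hh : l.head? = some u)
    (hl : l.getLast? = some w) :
    pathI (fke 0 0) l = GG w - GG u := by
  refine pathI_prim (V := UU) (fun s h => ?_) (fun s h => fke_cont _ _ h) l hs hh hl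
  have := GG_deriv h
  have e : fke 0 0 s = 1 / YY s := by
    unfold fke
    simp
  rw [e]
  exact this

theorem YY_real_zpow_im {u : ℂ} {y : ℝ} (h : YY u = (y : ℂ)) (k : ℤ) : (YY u ^ k).im = 0 := by
  rw [h, ← Complex.ofReal_zpow]
  exact Complex.ofReal_im _

theorem YY_two_zpow (e : ℤ) : YY 2 ^ (2 * e + 1) = ((2 * (-4) ^ e : ℝ) : ℂ) * Complex.I := by
  rw [YY_two, zpow_add_one₀ (by simp), zpow_mul]
  have : (2 * Complex.I) ^ (2 : ℤ) = -4 := by
    have : (2 * Complex.I) ^ (2 : ℤ) = (2 * Complex.I) ^ 2 := by norm_cast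
    rw [this]
    linear_combination 4 * Complex.I_mul_I
  rw [this]
  push_cast
  ring

/-! ### the moments are path integrals -/

theorem isMom_path_two (l : List ℂ) (x0 : ℝ) (hx0 : s8 < x0) (hh : l.head? = some (x0 : ℂ))
    (hl : l.getLast? = some 2) (hs : PathIn UU l) :
    IsMom (fun k e => 2 * (pathI (fke k e) l).im) 1 where
  pascal k e := by
    have := congrArg Complex.im (fke_pascal l hs k e)
    rw [show (8 : ℂ) = ((8 : ℝ) : ℂ) by norm_num, Complex.add_im, Complex.im_ofReal_mul] at this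
    simp only [this]
    ring
  r0 e := by
    have := congrArg Complex.im (fke_r0 l hs hh hl e)
    rw [show (2 * (e : ℂ) + 1) = ((2 * (e : ℝ) + 1 : ℝ) : ℂ) by push_cast; rfl,
      Complex.im_ofReal_mul, Complex.sub_im, YY_real_zpow_im (YY_big hx0), YY_two_zpow,
      Complex.im_ofReal_mul, Complex.I_im] at this
    linear_combination 2 * this
  r1 e := by
    have := congrArg Complex.im (fke_r1 l hs hh hl e)
    rw [show (2 * (e : ℂ) + 2) = ((2 * (e : ℝ) + 2 : ℝ) : ℂ) by push_cast; rfl,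
      show (-8 : ℂ) = ((-8 : ℝ) : ℂ) by norm_num, show (2 : ℂ) = ((2 : ℝ) : ℂ) by norm_num,
      Complex.add_im, Complex.im_ofReal_mul, Complex.im_ofReal_mul, Complex.sub_im,
      Complex.im_ofReal_mul, Complex.im_ofReal_mul, YY_real_zpow_im (YY_big hx0)] at this
    rw [show ((2 : ℝ) : ℂ) = (2 : ℂ) by norm_num, YY_two_zpow,
      Complex.im_ofReal_mul, Complex.I_im] at this
    linear_combination 2 * this

theorem isMom_path_circ (l : List ℂ) (x1 x2 : ℝ) (hx1 : s8 < x1) (hx2 : x2 < -s8)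
    (hh : l.head? = some (x1 : ℂ)) (hl : l.getLast? = some (x2 : ℂ)) (hs : PathIn UU l) :
    IsMom (fun k e => (1 / (2 * Real.pi)) * (pathI (fke k e) l).im) 0 where
  pascal k e := by
    have := congrArg Complex.im (fke_pascal l hs k e)
    rw [show (8 : ℂ) = ((8 : ℝ) : ℂ) by norm_num, Complex.add_im, Complex.im_ofReal_mul] at this
    simp only [this]
    ring
  r0 e := by
    have := congrArg Complex.im (fke_r0 l hs hh hl e)
    have h2 : YY (x2 : ℂ) =
        ((-Real.exp ((Real.log (s8 - x2) + Real.log (-x2 - s8)) / 2) : ℝ) : ℂ) := by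
      rw [YY_small hx2]; push_cast; rfl
    rw [show (2 * (e : ℂ) + 1) = ((2 * (e : ℝ) + 1 : ℝ) : ℂ) by push_cast; rfl,
      Complex.im_ofReal_mul, Complex.sub_im, YY_real_zpow_im (YY_big hx1),
      YY_real_zpow_im h2] at this
    linear_combination (1 / (2 * Real.pi)) * this
  r1 e := by
    have := congrArg Complex.im (fke_r1 l hs hh hl e)
    have h2 : YY (x2 : ℂ) =
        ((-Real.exp ((Real.log (s8 - x2) + Real.log (-x2 - s8)) / 2) : ℝ) : ℂ) := by
      rw [YY_small hx2]; push_cast; rfl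
    rw [show (2 * (e : ℂ) + 2) = ((2 * (e : ℝ) + 2 : ℝ) : ℂ) by push_cast; rfl,
      show (-8 : ℂ) = ((-8 : ℝ) : ℂ) by norm_num,
      Complex.add_im, Complex.im_ofReal_mul, Complex.im_ofReal_mul, Complex.sub_im,
      Complex.im_ofReal_mul, Complex.im_ofReal_mul, YY_real_zpow_im (YY_big hx1),
      YY_real_zpow_im h2] at this
    linear_combination (1 / (2 * Real.pi)) * this

theorem mom_pi_eq (l : List ℂ) (x0 : ℝ) (hx0 : s8 < x0) (hh : l.head? = some (x0 : ℂ))
    (hl : l.getLast? = some 2) (hs : PathIn UU l) (E k : ℕ) :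
    mom Real.pi E k = 2 * (pathI (fke k (-(E : ℤ))) l).im := by
  have h := (isMom_path_two l x0 hx0 hh hl hs).eq k (-(E : ℤ))
  have h0 : 2 * (pathI (fke 0 0) l).im = Real.pi / 2 := by
    rw [fke_00 l hs hh hl, Complex.sub_im, GG_two_im, GG_big_im hx0]
    ring
  simp only [h0] at h
  rw [h, mom]
  ring

theorem bet_eq (l : List ℂ) (x1 x2 : ℝ) (hx1 : s8 < x1) (hx2 : x2 < -s8)
    (hh : l.head? = some (x1 : ℂ)) (hl : l.getLast? = some (x2 : ℂ)) (hs : PathIn UU l)
    (E k : ℕ) :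
    (mA k (-(E : ℤ)) : ℝ) / 2 = (1 / (2 * Real.pi)) * (pathI (fke k (-(E : ℤ))) l).im := by
  have h := (isMom_path_circ l x1 x2 hx1 hx2 hh hl hs).eq k (-(E : ℤ))
  have h0 : (1 / (2 * Real.pi)) * (pathI (fke 0 0) l).im = 1 / 2 := by
    rw [fke_00 l hs hh hl, Complex.sub_im, GG_small_im hx2, GG_big_im hx1]
    have := Real.pi_pos
    field_simp
    ring
  simp only [h0] at h
  rw [h]
  ring

/-- the integrand for a polynomial -/
noncomputable def fF (E : ℕ) (F : ℝ[X]) (r : ℂ) : ℂ := aeval r F * YY r ^ (2 * (-(E : ℤ)) - 1)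

theorem fF_cont (E : ℕ) (F : ℝ[X]) {r : ℂ} (h : r ∈ UU) : ContinuousAt (fF E F) r := by
  unfold fF
  exact (Polynomial.continuous_aeval F).continuousAt.mul
    ((YY_cont h).zpow₀ _ (Or.inl (YY_ne r)))

theorem functional_eq (L : ℝ[X] →ₗ[ℝ] ℝ) (l : List ℂ) (hs : PathIn UU l) (E : ℕ) (c : ℝ)
    (hL : ∀ k, L (X ^ k) = c * (pathI (fke k (-(E : ℤ))) l).im) (F : ℝ[X]) :
    L F = c * (pathI (fF E F) l).im := by
  induction F using Polynomial.induction_on' with
  | add p q hp hq =>
    have h1 : fF E (p + q) = fun s => fF E p s + fF E q s := by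
      funext s
      unfold fF
      rw [map_add]
      ring
    rw [map_add, hp, hq, h1, pathI_add (V := UU) (fun s h => fF_cont _ _ h)
      (fun s h => fF_cont _ _ h) l hs, Complex.add_im]
    ring
  | monomial k a =>
    have h1 : (monomial k a : ℝ[X]) = a • X ^ k := by
      rw [← C_mul_X_pow_eq_monomial, smul_eq_C_mul]
    have h2 : fF E (a • X ^ k : ℝ[X]) = fun s => (a : ℂ) * fke k (-(E : ℤ)) s := by
      funext s
      unfold fF fke
      rw [map_smul, map_pow, aeval_X, Complex.real_smul]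
      ring
    rw [h1, map_smul, hL, h2, Path_pathI_smul, Complex.im_ofReal_mul, smul_eq_mul]
    ring

/-! ### bounds -/

theorem PathIn_mono {S T : Set ℂ} (h : S ⊆ T) (l : List ℂ) (hs : PathIn S l) : PathIn T l := by
  induction l with
  | nil => trivial
  | cons a l ih =>
    cases l with
    | nil => trivial
    | cons b l => exact ⟨hs.1.trans h, ih hs.2⟩

theorem PathIn_inter {S T : Set ℂ} (l : List ℂ) (hs : PathIn S l) (ht : PathIn T l) :
    PathIn (S ∩ T) l := by
  induction l with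
  | nil => trivial
  | cons a l ih =>
    cases l with
    | nil => trivial
    | cons b l => exact ⟨Set.subset_inter hs.1 ht.1, ih hs.2 ht.2⟩

theorem PathIn_lower (l : List ℂ) (hs : PathIn UU l) :
    ∃ δ : ℝ, 0 < δ ∧ PathIn (UU ∩ {s | δ ≤ ‖YY s‖}) l := by
  induction l with
  | nil => exact ⟨1, one_pos, trivial⟩
  | cons a l ih =>
    cases l with
    | nil => exact ⟨1, one_pos, trivial⟩
    | cons b l =>
      obtain ⟨δ, hδ, h⟩ := ih hs.2
      have hc : IsCompact (segment ℝ a b) := by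
        rw [segment_eq_image_lineMap]
        exact isCompact_Icc.image AffineMap.lineMap_continuous
      have hne : (segment ℝ a b).Nonempty := ⟨a, left_mem_segment ℝ a b⟩
      have hcont : ContinuousOn (fun s => ‖YY s‖) (segment ℝ a b) := fun s h' =>
        (YY_cont (hs.1 h')).norm.continuousWithinAt
      obtain ⟨m, hm, hmin⟩ := hc.exists_isMinOn hne hcont
      have hpos : 0 < ‖YY m‖ := norm_pos_iff.2 (YY_ne m)
      refine ⟨min δ ‖YY m‖, lt_min hδ hpos, ?_, ?_⟩
      · intro s hs'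
        refine ⟨hs.1 hs', ?_⟩
        show min δ ‖YY m‖ ≤ ‖YY s‖
        exact (min_le_right _ _).trans (hmin hs')
      · refine PathIn_mono ?_ _ h
        intro s hs'
        refine ⟨hs'.1, ?_⟩
        show min δ ‖YY m‖ ≤ ‖YY s‖
        exact (min_le_left _ _).trans hs'.2

theorem funBound_of_path (L : ℕ → ℝ[X] →ₗ[ℝ] ℝ) (S : Set ℂ) (l : List ℂ) (hs : PathIn UU l)
    (hS : PathIn S l) (c : ℝ) (u w : ℂ) (huw : u ≠ w) (hh : l.head? = some u)
    (hl : l.getLast? = some w)
    (hL : ∀ E k, L E (X ^ k) = c * (pathI (fke k (-(E : ℤ))) l).im) : FunBound L S := by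
  obtain ⟨δ, hδ, hlow⟩ := PathIn_lower l hs
  refine ⟨|c| * Path_len l * δ⁻¹ + 1, ?_, ?_⟩
  · have := Path_len_nonneg l
    positivity
  intro E F M hM
  -- nonnegativity of `M`
  have hM0 : 0 ≤ M := by
    cases l with
    | nil => simp at hh
    | cons a l =>
      cases l with
      | nil =>
        exfalso
        simp at hh hl
        exact huw (hh.symm.trans hl)
      | cons b l =>
        have h1 : a ∈ S := hS.1 (left_mem_segment ℝ a b)
        have h1' : a ∈ UU := hs.1 (left_mem_segment ℝ a b)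
        have h2 := hM a h1
        have h3 : 0 < ‖a ^ 2 - 8‖ ^ E := by
          rw [← YY_sq h1']
          exact pow_pos (norm_pos_iff.2 (pow_ne_zero 2 (YY_ne a))) E
        by_contra h
        push Not at h
        have := mul_neg_of_neg_of_pos h h3
        linarith only [h2, this, norm_nonneg (aeval a F)]
  rw [functional_eq (L E) l hs E c (hL E) F]
  have h1 := norm_pathI_le (fF E F) (M * δ⁻¹) (S ∩ (UU ∩ {s | δ ≤ ‖YY s‖})) l
    (PathIn_inter l hS hlow) ?_
  · have h2 := Complex.abs_im_le_norm (pathI (fF E F) l)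
    rw [abs_mul]
    calc |c| * |(pathI (fF E F) l).im| ≤ |c| * (Path_len l * (M * δ⁻¹)) :=
          mul_le_mul_of_nonneg_left (h2.trans h1) (abs_nonneg c)
      _ ≤ (|c| * Path_len l * δ⁻¹ + 1) * M := by nlinarith
  · rintro s ⟨hsS, hsU, hsδ⟩
    have h0 := YY_ne s
    have h3 : fF E F s = aeval s F * ((s ^ 2 - 8) ^ E)⁻¹ * (YY s)⁻¹ := by
      unfold fF
      rw [← YY_sq hsU, zpow_sub₀ h0, zpow_one, ← pow_mul]
      rw [show (2 * (-(E : ℤ))) = -((2 * E : ℕ) : ℤ) by push_cast; ring, zpow_neg, zpow_natCast]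
      rw [div_eq_mul_inv]
      ring
    rw [h3, norm_mul, norm_mul, norm_inv, norm_inv, norm_pow]
    have h4 : 0 < ‖s ^ 2 - 8‖ ^ E := by
      rw [← YY_sq hsU]
      exact pow_pos (norm_pos_iff.2 (pow_ne_zero 2 h0)) E
    have h5 : ‖aeval s F‖ * (‖s ^ 2 - 8‖ ^ E)⁻¹ ≤ M := by
      rw [← div_eq_mul_inv, div_le_iff₀ h4]
      exact hM s hsS
    have h6 : ‖YY s‖⁻¹ ≤ δ⁻¹ := inv_anti₀ hδ hsδ
    exact mul_le_mul h5 h6 (by positivity) hM0

/-- **T2a**, first half -/
theorem funBound_Lam (l : List ℂ) (x0 : ℝ) (hx0 : s8 < x0) (hh : l.head? = some (x0 : ℂ))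
    (hl : l.getLast? = some 2) (hs : PathIn UU l) (S : Set ℂ) (hS : PathIn S l) :
    FunBound (Lam Real.pi) S := by
  refine funBound_of_path (Lam Real.pi) S l hs hS 2 x0 2 ?_ hh hl ?_
  · intro h
    have h2 : x0 = 2 := by exact_mod_cast h
    linarith [s8_gt]
  · intro E k
    rw [Lam_X_pow]
    exact mom_pi_eq l x0 hx0 hh hl hs E k

/-- **T2a**, second half -/
theorem funBound_Bet (l : List ℂ) (x1 x2 : ℝ) (hx1 : s8 < x1) (hx2 : x2 < -s8)
    (hh : l.head? = some (x1 : ℂ)) (hl : l.getLast? = some (x2 : ℂ)) (hs : PathIn UU l)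
    (T : Set ℂ) (hT : PathIn T l) : FunBound Bet T := by
  refine funBound_of_path Bet T l hs hT (1 / (2 * Real.pi)) x1 x2 ?_ hh hl ?_
  · intro h
    have h2 : x1 = x2 := by exact_mod_cast h
    linarith [s8_pos]
  · intro E k
    rw [Bet_X_pow]
    exact bet_eq l x1 x2 hx1 hx2 hh hl hs E k

/-! ### polygons in `UU` -/

theorem seg_UU {a b : ℂ} (ha : a ∈ UU) (hb : b ∈ UU) (h : 0 < a.im ∨ 0 < b.im) :
    segment ℝ a b ⊆ UU := by
  rintro s ⟨t, u, ht, hu, htu, rfl⟩
  have him : (t • a + u • b).im = t * a.im + u * b.im := by simp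
  have ha0 := ha.1
  have hb0 := hb.1
  have h1 : 0 ≤ t * a.im := mul_nonneg ht ha0
  have h2 : 0 ≤ u * b.im := mul_nonneg hu hb0
  rcases (add_nonneg h1 h2).lt_or_eq with h3 | h3
  · refine ⟨by rw [him]; exact h3.le, ?_, ?_⟩
    · intro h4
      have := congrArg Complex.im h4
      rw [him, Complex.ofReal_im] at this
      linarith
    · intro h4
      have := congrArg Complex.im h4
      rw [him, Complex.neg_im, Complex.ofReal_im] at this
      linarith
  · have h4 : t * a.im = 0 := by linarith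
    have h5 : u * b.im = 0 := by linarith
    rcases h with h | h
    · have ht0 : t = 0 := (mul_eq_zero.1 h4).resolve_right h.ne'
      have hu1 : u = 1 := by linarith
      rw [ht0, hu1]
      simpa using hb
    · have hu0 : u = 0 := (mul_eq_zero.1 h5).resolve_right h.ne'
      have ht1 : t = 1 := by linarith
      rw [hu0, ht1]
      simpa using ha

theorem mem_UU_of_im {a : ℂ} (h : 0 < a.im) : a ∈ UU := by
  refine ⟨h.le, ?_, ?_⟩
  · intro h4
    have := congrArg Complex.im h4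
    rw [Complex.ofReal_im] at this
    linarith
  · intro h4
    have := congrArg Complex.im h4
    rw [Complex.neg_im, Complex.ofReal_im] at this
    linarith

theorem two_mem_UU : (2 : ℂ) ∈ UU := by
  have h := s8_gt
  have := real_mem_UU (x := 2) (by linarith) (by linarith)
  simpa using this

end Vale.Agent.P021.R2.H636
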