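import Vale.Agent.P021.R2.H542.Loc

/-!
# The window bound at a prime `l`

For `l = 2h+1`, `W_l = (r-2)^l (r-3)^{2l} (r^2-8)^{-(3l-1)/2}`: integration by parts shows that
`L(r^k W_l)` is `l`-integral unless `l` divides `k+1`.
-/

set_option autoImplicit false

open Polynomial Finset

namespace Vale.Agent.P021.R2.H636

open Vale.Agent.P021.R2.H542

theorem der_Wp (h : ℕ) : derivative (Wp (2 * h + 1) (4 * h + 2)) =
    C (2 * (h : ℝ) + 1) * (C 3 * X - C 7) * Wp (2 * h) (4 * h + 1) := by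
  unfold Wp
  have h1 : derivative ((X - C 2 : ℝ[X]) ^ (2 * h + 1)) = C (2 * (h : ℝ) + 1) * (X - C 2) ^ (2 * h) := by
    rw [derivative_X_sub_C_pow]
    simp
  have h2 : derivative ((X - C 3 : ℝ[X]) ^ (4 * h + 2)) =
      C (4 * (h : ℝ) + 2) * (X - C 3) ^ (4 * h + 1) := by
    rw [derivative_X_sub_C_pow]
    simp
  rw [derivative_mul, h1, h2, pow_succ (X - C 2) (2 * h),
    show 4 * h + 2 = (4 * h + 1) + 1 by ring, pow_succ (X - C 3) (4 * h + 1)]
  simp only [map_add, map_mul, map_ofNat, map_one, map_natCast]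
  ring

/-- the integration by parts identity over `ℝ` -/
theorem win_real (x : ℝ) (h k : ℕ) :
    ((k : ℝ) + 1) * Lam x (3 * h + 1) (X ^ k * Wp (2 * h + 1) (4 * h + 2)) =
      (2 * (h : ℝ) + 1) * (3 * Lam x (3 * h + 2) (X ^ (k + 2) * Wp (2 * h + 1) (4 * h + 2)) -
        Lam x (3 * h + 2) (X ^ (k + 1) * (C 3 * X - C 7) * (X ^ 2 - C 8) *
          Wp (2 * h) (4 * h + 1))) := by
  have h1 := Lam_ftc x (3 * h + 2) (X ^ (k + 1) * Wp (2 * h + 1) (4 * h + 2))
  have h2 := Lam_mul_Q x (3 * h + 1) (X ^ k * Wp (2 * h + 1) (4 * h + 2))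
  have h0 : (X ^ (k + 1) * Wp (2 * h + 1) (4 * h + 2) : ℝ[X]).eval 2 = 0 := by
    unfold Wp
    simp
  rw [h0, mul_zero] at h1
  have e : derivative (X ^ (k + 1) * Wp (2 * h + 1) (4 * h + 2)) * (X ^ 2 - C 8) +
      C (1 - 2 * ((3 * h + 2 : ℕ) : ℝ)) * X * (X ^ (k + 1) * Wp (2 * h + 1) (4 * h + 2)) =
      ((k : ℝ) + 1) • ((X ^ 2 - C 8) * (X ^ k * Wp (2 * h + 1) (4 * h + 2))) -
      (2 * (h : ℝ) + 1) • ((3 : ℝ) • (X ^ (k + 2) * Wp (2 * h + 1) (4 * h + 2)) -
        X ^ (k + 1) * (C 3 * X - C 7) * (X ^ 2 - C 8) * Wp (2 * h) (4 * h + 1)) := by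
    rw [derivative_mul, der_Wp, derivative_X_pow]
    simp only [smul_eq_C_mul, Nat.add_sub_cancel]
    push_cast
    simp only [map_add, map_mul, map_sub, map_ofNat, map_one, map_natCast]
    ring
  rw [e, map_sub, map_smul, map_smul, map_sub, map_smul, h2] at h1
  simp only [smul_eq_mul] at h1
  linear_combination h1

/-- the identity over `ℚ` -/
theorem win_rat (p q : ℤ) (hq : 0 < q) (h k : ℕ) :
    ((k + 1 : ℕ) : ℚ) * LE p q (3 * h + 1) (X ^ k * wpz (2 * h + 1) (4 * h + 2)) =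
      ((2 * h + 1 : ℕ) : ℚ) *
        (((3 : ℕ) : ℚ) * LE p q (3 * h + 2) (X ^ (k + 2) * wpz (2 * h + 1) (4 * h + 2)) -
          LE p q (3 * h + 2) (X ^ (k + 1) * (C 3 * X - C 7) * Qz * wpz (2 * h) (4 * h + 1))) := by
  have h1 := win_real ((p : ℝ) / q) h k
  have e1 : (X ^ k * wpz (2 * h + 1) (4 * h + 2)).map (Int.castRingHom ℝ) =
      X ^ k * Wp (2 * h + 1) (4 * h + 2) := by
    rw [Polynomial.map_mul, Polynomial.map_pow, map_X, wpz_map]
  have e2 : (X ^ (k + 2) * wpz (2 * h + 1) (4 * h + 2)).map (Int.castRingHom ℝ) =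
      X ^ (k + 2) * Wp (2 * h + 1) (4 * h + 2) := by
    rw [Polynomial.map_mul, Polynomial.map_pow, map_X, wpz_map]
  have e3 : (X ^ (k + 1) * (C 3 * X - C 7) * Qz * wpz (2 * h) (4 * h + 1)).map
      (Int.castRingHom ℝ) =
      X ^ (k + 1) * (C 3 * X - C 7) * (X ^ 2 - C 8) * Wp (2 * h) (4 * h + 1) := by
    have h3 : (Int.castRingHom ℝ) 3 = 3 := by simp
    have h7 : (Int.castRingHom ℝ) 7 = 7 := by simp
    rw [Polynomial.map_mul, Polynomial.map_mul, Polynomial.map_mul, Polynomial.map_pow,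
      Polynomial.map_sub, Polynomial.map_mul, map_X, map_C, map_C, wpz_map, Qz_map, h3, h7]
  have f1 := LE_real p q hq (3 * h + 1) (X ^ k * wpz (2 * h + 1) (4 * h + 2))
  have f2 := LE_real p q hq (3 * h + 2) (X ^ (k + 2) * wpz (2 * h + 1) (4 * h + 2))
  have f3 := LE_real p q hq (3 * h + 2)
    (X ^ (k + 1) * (C 3 * X - C 7) * Qz * wpz (2 * h) (4 * h + 1))
  rw [e1] at f1
  rw [e2] at f2
  rw [e3] at f3
  have key : (((k + 1 : ℕ) : ℝ)) *
      ((LE p q (3 * h + 1) (X ^ k * wpz (2 * h + 1) (4 * h + 2)) : ℚ) : ℝ) =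
      ((2 * h + 1 : ℕ) : ℝ) *
        (((3 : ℕ) : ℝ) *
          ((LE p q (3 * h + 2) (X ^ (k + 2) * wpz (2 * h + 1) (4 * h + 2)) : ℚ) : ℝ) -
          ((LE p q (3 * h + 2)
            (X ^ (k + 1) * (C 3 * X - C 7) * Qz * wpz (2 * h) (4 * h + 1)) : ℚ) : ℝ)) := by
    rw [f1, f2, f3]
    push_cast
    linear_combination (2 * (q : ℝ)) * h1
  exact_mod_cast key

section local_

variable (p q : ℤ) (h : ℕ)

/-- the moments of the window weight -/
noncomputable def AW (k : ℕ) : ℚ := LE p q (3 * h + 1) (X ^ k * wpz (2 * h + 1) (4 * h + 2))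

theorem AW_all (hl : (2 * h + 1).Prime) (h11 : 11 ≤ 2 * h + 1) (k : ℕ)
    (hk : k < 3 * (2 * h + 1)) : padicNorm (2 * h + 1) (AW p q h k) ≤ ((2 * h + 1 : ℕ) : ℚ) := by
  have : Fact (2 * h + 1).Prime := ⟨hl⟩
  have hsq : (2 * h + 1) ^ 2 ≥ 11 * (2 * h + 1) := by nlinarith
  refine LE_norm_le (2 * h + 1) p q (3 * h + 1) _ _ (by positivity) fun j hj => ?_
  have hdeg : (X ^ k * wpz (2 * h + 1) (4 * h + 2)).natDegree ≤ k + (2 * h + 1 + (4 * h + 2)) :=
    natDegree_mul_le_of_le (natDegree_X_pow_le k) (wpz_natDegree_le _ _)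
  exact cK_all (2 * h + 1) (by omega) p q (3 * h + 1) j (by omega)

theorem AW_good (hq : 0 < q) (hl : (2 * h + 1).Prime) (h11 : 11 ≤ 2 * h + 1) (k : ℕ)
    (hk : k < 3 * (2 * h + 1)) (hd : ¬ (2 * h + 1) ∣ k + 1) :
    padicNorm (2 * h + 1) (AW p q h k) ≤ 1 := by
  have : Fact (2 * h + 1).Prime := ⟨hl⟩
  have hsq : (2 * h + 1) ^ 2 ≥ 11 * (2 * h + 1) := by nlinarith
  have hl0 : (0 : ℚ) < ((2 * h + 1 : ℕ) : ℚ) := by positivity
  have hB1 : padicNorm (2 * h + 1) (LE p q (3 * h + 2)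
      (X ^ (k + 2) * wpz (2 * h + 1) (4 * h + 2))) ≤ ((2 * h + 1 : ℕ) : ℚ) := by
    refine LE_norm_le (2 * h + 1) p q (3 * h + 2) _ _ (by positivity) fun j hj => ?_
    have hdeg : (X ^ (k + 2) * wpz (2 * h + 1) (4 * h + 2)).natDegree ≤
        (k + 2) + (2 * h + 1 + (4 * h + 2)) :=
      natDegree_mul_le_of_le (natDegree_X_pow_le _) (wpz_natDegree_le _ _)
    exact cK_all (2 * h + 1) (by omega) p q (3 * h + 2) j (by omega)
  have hB2 : padicNorm (2 * h + 1) (LE p q (3 * h + 2)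
      (X ^ (k + 1) * (C 3 * X - C 7) * Qz * wpz (2 * h) (4 * h + 1))) ≤
      ((2 * h + 1 : ℕ) : ℚ) := by
    refine LE_norm_le (2 * h + 1) p q (3 * h + 2) _ _ (by positivity) fun j hj => ?_
    have h37 : (C 3 * X - C 7 : ℤ[X]).natDegree ≤ 1 := by compute_degree
    have hdeg : (X ^ (k + 1) * (C 3 * X - C 7) * Qz * wpz (2 * h) (4 * h + 1)).natDegree ≤
        (k + 1 + 1 + 2) + (2 * h + (4 * h + 1)) :=
      natDegree_mul_le_of_le (natDegree_mul_le_of_le (natDegree_mul_le_of_le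
        (natDegree_X_pow_le _) h37) Qz_natDegree.le) (wpz_natDegree_le _ _)
    exact cK_all (2 * h + 1) (by omega) p q (3 * h + 2) j (by omega)
  have hid := win_rat p q hq h k
  have hn := congrArg (padicNorm (2 * h + 1)) hid
  rw [padicNorm.mul, padicNorm.mul, padicNorm.padicNorm_p_of_prime,
    val_norm_nat_eq_one (p := 2 * h + 1) (m := k + 1) hd, one_mul] at hn
  unfold AW
  rw [hn, inv_mul_le_iff₀ hl0, mul_one]
  refine padicNorm.sub.trans (max_le ?_ hB2)
  rw [padicNorm.mul]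
  calc _ ≤ 1 * ((2 * h + 1 : ℕ) : ℚ) := mul_le_mul (padicNorm.of_nat 3) hB1
        (padicNorm.nonneg _) zero_le_one
    _ = _ := one_mul _

end local_

/-- an integer congruent to an `l`-integral rational -/
theorem exists_kappa (l : ℕ) [hl : Fact l.Prime] (r : ℚ) (hr : padicNorm l r ≤ 1) :
    ∃ κ : ℤ, padicNorm l (r - κ) ≤ (l : ℚ)⁻¹ := by
  have hden : ¬ (l : ℤ) ∣ (r.den : ℤ) := by
    intro hd
    have hd' : l ∣ r.den := by exact_mod_cast hd
    have hnum : ¬ (l : ℤ) ∣ r.num := by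
      intro hn
      have hn' : l ∣ r.num.natAbs := Int.natCast_dvd.1 hn
      have := Nat.dvd_gcd hn' hd'
      rw [r.reduced] at this
      exact hl.out.one_lt.ne' (Nat.dvd_one.1 this)
    have h1 : padicNorm l (r.num : ℚ) = 1 := (padicNorm.int_eq_one_iff r.num).2 hnum
    have h2 : padicNorm l (r.den : ℚ) < 1 := (padicNorm.nat_lt_one_iff r.den).2 hd'
    have h3 : r * (r.den : ℚ) = r.num := by
      exact Rat.mul_den_eq_num r
    have h4 := congrArg (padicNorm l) h3
    rw [padicNorm.mul, h1] at h4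
    have h5 : padicNorm l r * padicNorm l (r.den : ℚ) ≤ 1 * padicNorm l (r.den : ℚ) :=
      mul_le_mul_of_nonneg_right hr (padicNorm.nonneg _)
    linarith
  have hcop : IsCoprime (r.den : ℤ) (l : ℤ) := by
    rw [isCoprime_comm]
    exact ((Nat.prime_iff_prime_int.1 hl.out).coprime_iff_not_dvd).2 hden
  obtain ⟨u, v, huv⟩ := hcop
  refine ⟨r.num * u, ?_⟩
  have hden0 : (r.den : ℚ) ≠ 0 := by exact_mod_cast r.den_ne_zero
  have h3 : r * (r.den : ℚ) = r.num := Rat.mul_den_eq_num r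
  have huv' : (u : ℚ) * (r.den : ℚ) + (v : ℚ) * (l : ℚ) = 1 := by exact_mod_cast huv
  have h4 : (r - ((r.num * u : ℤ) : ℚ)) * (r.den : ℚ) = ((r.num * v : ℤ) : ℚ) * (l : ℚ) := by
    push_cast
    linear_combination h3 - (r.num : ℚ) * huv'
  have h5 := congrArg (padicNorm l) h4
  rw [padicNorm.mul, padicNorm.mul, padicNorm.padicNorm_p_of_prime] at h5
  have h6 : padicNorm l (r.den : ℚ) = 1 := by
    have := (padicNorm.int_eq_one_iff (p := l) (r.den : ℤ)).2 hden
    exact_mod_cast this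
  rw [h6, mul_one] at h5
  rw [h5]
  calc _ ≤ 1 * (l : ℚ)⁻¹ := mul_le_mul_of_nonneg_right (padicNorm.of_int _)
        (by positivity)
    _ = _ := one_mul _

section local_

variable (p q : ℤ) (h : ℕ)

theorem LE_AW_eq_sum (n : ℤ[X]) {N : ℕ} (hN : n.natDegree < N) :
    LE p q (3 * h + 1) (n * wpz (2 * h + 1) (4 * h + 2)) =
      ∑ k ∈ range N, (n.coeff k : ℚ) * AW p q h k := by
  conv_lhs => rw [n.as_sum_range' N hN, Finset.sum_mul, map_sum]
  apply Finset.sum_congr rfl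
  intro r _
  rw [← smul_X_eq_monomial, smul_mul_assoc, map_smul, zsmul_eq_mul, AW]

/-- there is a monic polynomial `P` of degree `0` or `l` killing the bad part -/
theorem exists_P (hq : 0 < q) (hl : (2 * h + 1).Prime) (h11 : 11 ≤ 2 * h + 1) :
    ∃ P : ℤ[X], P.Monic ∧ (P.natDegree = 0 ∨ P.natDegree = 2 * h + 1) ∧
      ∀ n : ℤ[X], n.natDegree < 2 * (2 * h + 1) - 1 →
        padicNorm (2 * h + 1) (LE p q (3 * h + 1) (P * n * wpz (2 * h + 1) (4 * h + 2))) ≤ 1 := by
  have hf : Fact (2 * h + 1).Prime := ⟨hl⟩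
  have hl0 : (0 : ℚ) < ((2 * h + 1 : ℕ) : ℚ) := by positivity
  have hgood : ∀ k, k < 2 * (2 * h + 1) - 1 → k ≠ 2 * h → ¬ (2 * h + 1) ∣ k + 1 := by
    intro k hk hk2 hd
    obtain ⟨c, hc⟩ := hd
    rcases c with _ | _ | c
    · omega
    · omega
    · have : (2 * h + 1) * (c + 1 + 1) ≥ (2 * h + 1) * 2 := Nat.mul_le_mul le_rfl (by omega)
      omega
  by_cases hA : padicNorm (2 * h + 1) (AW p q h (2 * h)) ≤ 1
  · refine ⟨1, monic_one, Or.inl natDegree_one, fun n hn => ?_⟩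
    rw [one_mul, LE_AW_eq_sum p q h n hn]
    have h1 := val_sum_le (2 * h + 1) 1 (range (2 * (2 * h + 1) - 1))
      (fun k => (n.coeff k : ℚ) * AW p q h k) zero_le_one one_ne_zero ?_
    · rwa [pow_one] at h1
    · intro k hk
      rw [mem_range] at hk
      rw [pow_one, padicNorm.mul]
      refine mul_le_one₀ (padicNorm.of_int _) (padicNorm.nonneg _) ?_
      by_cases hk2 : k = 2 * h
      · rw [hk2]; exact hA
      · exact AW_good p q h hq hl h11 k (by omega) (hgood k hk hk2)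
  · push Not at hA
    have hA0 : AW p q h (2 * h) ≠ 0 := by
      intro h0
      rw [h0, padicNorm.zero] at hA
      linarith
    have hAl : padicNorm (2 * h + 1) (AW p q h (2 * h)) = ((2 * h + 1 : ℕ) : ℚ) := by
      have h1 := AW_all p q h hl h11 (2 * h) (by omega)
      obtain ⟨z, hz⟩ := padicNorm.values_discrete (p := 2 * h + 1) hA0
      rw [hz] at hA h1 ⊢
      have hl1 : (1 : ℚ) < ((2 * h + 1 : ℕ) : ℚ) := by exact_mod_cast hl.one_lt
      have h2 : 0 < -z := by
        by_contra hcon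
        have := zpow_le_one_of_nonpos₀ hl1.le (not_lt.1 hcon)
        linarith
      have h3 : -z ≤ 1 := by
        by_contra hcon
        have h4 : (1 : ℤ) < -z := not_le.1 hcon
        have h5 := zpow_lt_zpow_right₀ hl1 h4
        rw [zpow_one] at h5
        linarith
      have h4 : -z = 1 := by omega
      rw [h4, zpow_one]
    have h2 := AW_all p q h hl h11 (2 * (2 * h + 1) - 1) (by omega)
    set ρ : ℚ := AW p q h (2 * (2 * h + 1) - 1) / AW p q h (2 * h) with hρ
    have hρ1 : padicNorm (2 * h + 1) ρ ≤ 1 := by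
      rw [hρ, padicNorm.div, hAl, div_le_one hl0]
      exact h2
    obtain ⟨κ, hκ⟩ := exists_kappa (2 * h + 1) ρ hρ1
    have hbad : padicNorm (2 * h + 1)
        (AW p q h (2 * (2 * h + 1) - 1) - κ * AW p q h (2 * h)) ≤ 1 := by
      have e : AW p q h (2 * (2 * h + 1) - 1) - κ * AW p q h (2 * h) =
          (ρ - κ) * AW p q h (2 * h) := by
        rw [hρ]
        field_simp
      rw [e, padicNorm.mul, hAl]
      calc _ ≤ ((2 * h + 1 : ℕ) : ℚ)⁻¹ * ((2 * h + 1 : ℕ) : ℚ) :=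
            mul_le_mul_of_nonneg_right hκ hl0.le
        _ = 1 := inv_mul_cancel₀ hl0.ne'
    refine ⟨X ^ (2 * h + 1) - C κ, monic_X_pow_sub_C κ (by omega), Or.inr ?_, fun n hn => ?_⟩
    · exact natDegree_X_pow_sub_C
    · have e : LE p q (3 * h + 1) ((X ^ (2 * h + 1) - C κ) * n * wpz (2 * h + 1) (4 * h + 2)) =
          ∑ k ∈ range (2 * (2 * h + 1) - 1), (n.coeff k : ℚ) *
            (AW p q h (k + (2 * h + 1)) - κ * AW p q h k) := by
        have e1 : (X ^ (2 * h + 1) - C κ) * n * wpz (2 * h + 1) (4 * h + 2) =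
            ∑ k ∈ range (2 * (2 * h + 1) - 1), n.coeff k •
              (X ^ (k + (2 * h + 1)) * wpz (2 * h + 1) (4 * h + 2) -
                κ • (X ^ k * wpz (2 * h + 1) (4 * h + 2))) := by
          conv_lhs => rw [n.as_sum_range' _ hn, Finset.mul_sum, Finset.sum_mul]
          apply Finset.sum_congr rfl
          intro k _
          rw [← C_mul_X_pow_eq_monomial, pow_add, smul_eq_C_mul, smul_eq_C_mul]
          ring
        rw [e1, map_sum]
        apply Finset.sum_congr rfl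
        intro k _
        rw [map_smul, map_sub, map_smul, zsmul_eq_mul, zsmul_eq_mul, AW, AW]
      rw [e]
      have h1 := val_sum_le (2 * h + 1) 1 (range (2 * (2 * h + 1) - 1))
        (fun k => (n.coeff k : ℚ) * (AW p q h (k + (2 * h + 1)) - κ * AW p q h k))
        zero_le_one one_ne_zero ?_
      · rwa [pow_one] at h1
      · intro k hk
        rw [mem_range] at hk
        rw [pow_one, padicNorm.mul]
        refine mul_le_one₀ (padicNorm.of_int _) (padicNorm.nonneg _) ?_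
        by_cases hk2 : k = 2 * h
        · rw [hk2]
          have : 2 * h + (2 * h + 1) = 2 * (2 * h + 1) - 1 := by omega
          rw [this]
          exact hbad
        · refine padicNorm.sub.trans (max_le ?_ ?_)
          · apply AW_good p q h hq hl h11 _ (by omega)
            intro hd
            apply hgood k hk hk2
            have : k + (2 * h + 1) + 1 = (k + 1) + (2 * h + 1) := by ring
            rw [this] at hd
            exact (Nat.dvd_add_left (dvd_refl _)).1 hd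
          · rw [padicNorm.mul]
            exact mul_le_one₀ (padicNorm.of_int _) (padicNorm.nonneg _)
              (AW_good p q h hq hl h11 k (by omega) (hgood k hk hk2))

end local_

theorem wpz_mul (A B A' B' : ℕ) : wpz A B * wpz A' B' = wpz (A + A') (B + B') := by
  unfold wpz
  rw [pow_add, pow_add]
  ring

theorem wpz_monic (A B : ℕ) : (wpz A B).Monic :=
  ((monic_X_sub_C 2).pow A).mul ((monic_X_sub_C 3).pow B)

theorem wpz_natDegree (A B : ℕ) : (wpz A B).natDegree = A + B := by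
  unfold wpz
  rw [((monic_X_sub_C (2 : ℤ)).pow A).natDegree_mul ((monic_X_sub_C (3 : ℤ)).pow B),
    (monic_X_sub_C (2 : ℤ)).natDegree_pow, (monic_X_sub_C (3 : ℤ)).natDegree_pow,
    natDegree_X_sub_C, natDegree_X_sub_C]
  ring

theorem LE_shift (p q : ℤ) (hq : 0 < q) (E E' m t u : ℕ) (h1 : E = m + t) (h2 : E' = m + u)
    (F : ℤ[X]) : LE p q E (Qz ^ t * F) = LE p q E' (Qz ^ u * F) := by
  subst h1
  subst h2
  rw [LE_mul_Q_pow p q hq, LE_mul_Q_pow p q hq]

/-- the window rows -/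
noncomputable def wrow (b f E h : ℕ) (P : ℤ[X]) (i : ℕ) : ℤ[X] :=
  if (2 * h + 1 - b) + (4 * h + 2 - f) + 2 * (E - (3 * h + 1)) + P.natDegree ≤ i then
    wpz (2 * h + 1 - b) (4 * h + 2 - f) * Qz ^ (E - (3 * h + 1)) * P *
      X ^ (i - ((2 * h + 1 - b) + (4 * h + 2 - f) + 2 * (E - (3 * h + 1)) + P.natDegree))
  else X ^ i

theorem wrow_monic (b f E h : ℕ) (P : ℤ[X]) (hP : P.Monic) (i : ℕ) :
    (wrow b f E h P i).Monic := by
  unfold wrow
  split_ifs
  · exact (((wpz_monic _ _).mul (Qz_monic.pow _)).mul hP).mul (monic_X_pow _)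
  · exact monic_X_pow _

theorem wrow_natDegree (b f E h : ℕ) (P : ℤ[X]) (hP : P.Monic) (i : ℕ) :
    (wrow b f E h P i).natDegree = i := by
  unfold wrow
  split_ifs with h1
  · rw [(((wpz_monic _ _).mul (Qz_monic.pow _)).mul hP).natDegree_mul (monic_X_pow _),
      ((wpz_monic _ _).mul (Qz_monic.pow _)).natDegree_mul hP,
      (wpz_monic _ _).natDegree_mul (Qz_monic.pow _), Qz_monic.natDegree_pow, wpz_natDegree,
      Qz_natDegree, natDegree_X_pow]
    omega
  · exact natDegree_X_pow _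

/-- **the window bound** -/
theorem lo_window (b f E K : ℕ) (p q : ℤ) (hq : 0 < q) (l : ℕ) (hl : l.Prime) (h11 : 11 ≤ l)
    (hr : rg b f E K < l ^ 2) : padicNorm l (NN b f E K p q) ≤
      (l : ℚ) ^ ((l - b) + (2 * l - f) + (2 * E + 1 - 3 * l) + l +
        ((2 * K + b + f) - (2 * E + 3 * l + 1))) := by
  have hf : Fact l.Prime := ⟨hl⟩
  have h2 : l ≠ 2 := by omega
  obtain ⟨h, rfl⟩ := hl.odd_of_ne_two h2
  obtain ⟨P, hP, hPd, hPn⟩ := exists_P p q h hq hl h11
  set s := (2 * h + 1 - b) + (4 * h + 2 - f) + 2 * (E - (3 * h + 1)) + P.natDegree with hs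
  set c := (b - (2 * h + 1)) + (f - (4 * h + 2)) + 2 * ((3 * h + 1) - E) with hc
  refine (det_bound b f E K p q (2 * h + 1) hl (wrow b f E h P) (fun i _ => wrow_monic b f E h P hP i)
    (fun i _ => wrow_natDegree b f E h P hP i)
    (fun i => s ≤ i ∧ i + K + c ≤ 2 * (2 * h + 1) - 1 + s) (s + (2 * K + c - (2 * (2 * h + 1) + s)))
    (2 * h + 1 : ℕ) (by exact_mod_cast hl.one_lt.le) ?_ ?_
    (fun i hi j hj => lo_all b f E K p q _ hl h2 hr _ (wrow_natDegree b f E h P hP i) hi hj)).trans ?_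
  · apply Det.lo_count
    intro i hi hni
    by_contra hcon
    rw [not_or] at hcon
    apply hni
    omega
  · intro i hi hg j hj
    have hE : E = min E (3 * h + 1) + (E - (3 * h + 1)) := by omega
    have hE2 : min E (3 * h + 1) + ((3 * h + 1) - E) = 3 * h + 1 := by omega
    set n : ℤ[X] := Qz ^ ((3 * h + 1) - E) * (wpz (b - (2 * h + 1)) (f - (4 * h + 2)) *
      (X ^ (i - s) * X ^ j)) with hn
    have e1 : wrow b f E h P i * X ^ j * wpz b f = Qz ^ (E - (3 * h + 1)) *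
        (P * (X ^ (i - s) * X ^ j) * wpz (b - (2 * h + 1)) (f - (4 * h + 2)) *
          wpz (2 * h + 1) (4 * h + 2)) := by
      rw [wrow, if_pos hg.1]
      have e2 : wpz (2 * h + 1 - b) (4 * h + 2 - f) * wpz b f =
          wpz (b - (2 * h + 1)) (f - (4 * h + 2)) * wpz (2 * h + 1) (4 * h + 2) := by
        rw [wpz_mul, wpz_mul]
        congr 1 <;> omega
      linear_combination (Qz ^ (E - (3 * h + 1)) * P * X ^ (i - s) * X ^ j) * e2
    rw [e1, LE_shift p q hq E (3 * h + 1) (min E (3 * h + 1)) (E - (3 * h + 1)) (3 * h + 1 - E)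
      hE hE2.symm]
    have e3 : Qz ^ (3 * h + 1 - E) * (P * (X ^ (i - s) * X ^ j) *
        wpz (b - (2 * h + 1)) (f - (4 * h + 2)) * wpz (2 * h + 1) (4 * h + 2)) =
        P * n * wpz (2 * h + 1) (4 * h + 2) := by
      rw [hn]; ring
    rw [e3]
    apply hPn
    have hd : n.natDegree ≤ (3 * h + 1 - E) * 2 + (((b - (2 * h + 1)) + (f - (4 * h + 2))) +
        ((i - s) + j)) := by
      apply natDegree_mul_le_of_le
      · exact natDegree_pow_le_of_le _ Qz_natDegree.le
      · exact natDegree_mul_le_of_le (wpz_natDegree_le _ _)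
          (natDegree_mul_le_of_le (natDegree_X_pow_le _) (natDegree_X_pow_le _))
    omega
  · apply pow_le_pow_right₀ (by exact_mod_cast hl.one_lt.le)
    rcases hPd with h3 | h3 <;> omega

end Vale.Agent.P021.R2.H636
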